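import Vale.Agent.P295.Final

/-!
The rigidity statement for the four dimensional example.
-/

set_option linter.unusedSectionVars false

namespace Vale.Agent.P295.Four

open AddMonoidAlgebra MvPolynomial Vale.Agent.P295

noncomputable section

def xP : P5 := X 1 * X 2 + X 0 * X 3
def zP : P5 := xP * X 1 + X 0 * X 4
def uP : P5 := X 2 - X 1
def yP : P5 := X 1 + xP ^ 2 - zP * uP
def H0 : P5 := xP ^ 2 * X 3 - (1 + xP * (X 1 + X 2)) * X 4 - X 0 * X 4 ^ 2
def HH : P5 := H0 - uP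

lemma rel0 : xP * yP - zP * (zP + 1) = X 0 * H0 := by
  unfold H0 yP zP uP xP
  ring

def io : P4 →ₐ[ℂ] P5 := aeval ![X 0, xP, -zP, uP]

lemma io0 : io (X 0) = X 0 := by simp [io]
lemma io1 : io (X 1) = xP := by simp [io]
lemma io2 : io (X 2) = -zP := by simp [io]
lemma io3 : io (X 3) = uP := by simp [io]

lemma sat {H : P5} (e : P4) (hH : X 0 * H0 = X 0 * H + io e) (i : Fin 5) : X i ∈ SatSub io H := by
  have hp : (X 0 : P5) ∈ SatSub io H := io0 ▸ SatSub_ι _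
  have hx : xP ∈ SatSub io H := io1 ▸ SatSub_ι _
  have hz : zP ∈ SatSub io H := by
    have := (SatSub io H).neg_mem (SatSub_ι (ι := io) (H := H) (X 2))
    rwa [io2, neg_neg] at this
  have hu : uP ∈ SatSub io H := io3 ▸ SatSub_ι _
  have hy : yP ∈ SatSub io H := by
    apply SatSub_of_mul_x
    have : io (X 1) * yP = zP * (zP + 1) + H * X 0 + io e := by
      rw [io1]; linear_combination rel0 + hH
    rw [this]
    exact add_mem (add_mem (mul_mem hz (add_mem hz (one_mem _))) (SatSub_H _)) (SatSub_ι _)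
  have hs : (X 1 : P5) ∈ SatSub io H := by
    have : (X 1 : P5) = yP - xP ^ 2 + zP * uP := by unfold yP; ring
    rw [this]
    exact add_mem (sub_mem hy (pow_mem hx 2)) (mul_mem hz hu)
  have hv : (X 2 : P5) ∈ SatSub io H := by
    have : (X 2 : P5) = X 1 + uP := by unfold uP; ring
    rw [this]
    exact add_mem hs hu
  have hF : (X 3 : P5) ∈ SatSub io H := by
    apply SatSub_of_mul_p
    have : io (X 0) * X 3 = xP - X 1 * X 2 := by rw [io0]; unfold xP; ring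
    rw [this]
    exact sub_mem hx (mul_mem hs hv)
  have hJ : (X 4 : P5) ∈ SatSub io H := by
    apply SatSub_of_mul_p
    have : io (X 0) * X 4 = zP - xP * X 1 := by rw [io0]; unfold zP; ring
    rw [this]
    exact sub_mem hz (mul_mem hx hs)
  fin_cases i
  · exact hp
  · exact hs
  · exact hv
  · exact hF
  · exact hJ

lemma sat0 (i : Fin 5) : X i ∈ SatSub io H0 := sat 0 (by simp) i

lemma satH (i : Fin 5) : X i ∈ SatSub io HH :=
  sat (X 0 * X 3) (by rw [map_mul, io0, io3]; unfold HH; ring) i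

/-- The value of `s`. -/
def sv (Y : Lam) : Lam := Y - vx ^ 2 + vz * vu

/-- Evaluation in the Laurent ring, for a given value of `y`. -/
def evg (Y : Lam) : P5 →ₐ[ℂ] Lam :=
  aeval ![vp, sv Y, sv Y + vu, (vx - sv Y * (sv Y + vu)) * vpi, (vz - vx * sv Y) * vpi]

lemma evg0 (Y : Lam) : evg Y (X 0) = vp := by simp [evg]
lemma evg1 (Y : Lam) : evg Y (X 1) = sv Y := by simp [evg]
lemma evg2 (Y : Lam) : evg Y (X 2) = sv Y + vu := by simp [evg]
lemma evg3 (Y : Lam) : evg Y (X 3) = (vx - sv Y * (sv Y + vu)) * vpi := by simp [evg]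
lemma evg4 (Y : Lam) : evg Y (X 4) = (vz - vx * sv Y) * vpi := by simp [evg]

lemma evg_x (Y : Lam) : evg Y xP = vx := by
  simp only [xP, map_add, map_mul, evg0, evg1, evg2, evg3]
  linear_combination (vx - sv Y * (sv Y + vu)) * vp_vpi

lemma evg_z (Y : Lam) : evg Y zP = vz := by
  simp only [zP, map_add, map_mul, evg0, evg1, evg4, evg_x]
  linear_combination (vz - vx * sv Y) * vp_vpi

lemma evg_u (Y : Lam) : evg Y uP = vu := by
  simp only [uP, map_sub, evg1, evg2]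
  ring

lemma evg_y (Y : Lam) : evg Y yP = Y := by
  simp only [yP, map_sub, map_add, map_mul, map_pow, evg1, evg_x, evg_z, evg_u, sv]
  ring

lemma evg_H0 (Y : Lam) : vp * evg Y H0 = vx * Y - vz * (vz + 1) := by
  have := congrArg (evg Y) rel0
  simp only [map_sub, map_add, map_mul, map_one, evg0, evg_x, evg_y, evg_z] at this
  exact this.symm

lemma evg_io (Y : Lam) (i : Fin 4) : evg Y (io (X i)) = mono (ee i) := by
  fin_cases i
  · exact io0 ▸ evg0 Y
  · exact io1 ▸ evg_x Y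
  · show evg Y (io (X 2)) = mono (ee 2)
    rw [io2, map_neg, evg_z, vz, neg_neg]
  · exact io3 ▸ evg_u Y

/-- The true value of `y`. -/
def YY : Lam := vy + vp * vu * vxi

def ev : P5 →ₐ[ℂ] Lam := evg YY
def ev0 : P5 →ₐ[ℂ] Lam := evg vy

lemma ev_H : ev HH = 0 := by
  apply mul_left_cancel₀ vp_ne
  rw [HH, map_sub, mul_sub, ev, evg_H0, evg_u, YY]
  linear_combination vx_vy + vp * vu * vx_vxi

lemma ev0_H0 : ev0 H0 = 0 := by
  apply mul_left_cancel₀ vp_ne
  rw [ev0, evg_H0]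
  linear_combination vx_vy

lemma xP_ne : xP ≠ 0 := by
  intro h
  have := evg_x vy
  rw [h, map_zero] at this
  exact vx_ne this.symm

lemma relPrime_p : IsRelPrime H0 (X 0) := by
  refine IsRelPrime.symm ?_
  rw [(MvPolynomial.X_prime (i := (0 : Fin 5)) (R := ℂ)).irreducible.isRelPrime_iff_not_dvd]
  rintro ⟨K, hK⟩
  have := congrArg (MvPolynomial.eval (![0, 0, 0, 0, 1] : Fin 5 → ℂ)) hK
  simp [H0, xP] at this

lemma relPrime_x : IsRelPrime H0 xP := by
  refine isRelPrime_of_degreeOf (4 : Fin 5) (b := -(X 4 + X 0 * X 4 ^ 2)) (c := -1) xP_ne ?_ ?_ ?_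
  · have h1 : ∀ i : Fin 5, i ≠ 4 → (X i : P5).degreeOf 4 = 0 := by
      intro i hi
      rw [MvPolynomial.degreeOf_X]
      simp [hi.symm]
    have h2 : ∀ i j : Fin 5, i ≠ 4 → j ≠ 4 → (X i * X j : P5).degreeOf 4 = 0 := by
      intro i j hi hj
      have := MvPolynomial.degreeOf_mul_le 4 (X i : P5) (X j)
      rw [h1 i hi, h1 j hj] at this
      omega
    have := MvPolynomial.degreeOf_add_le 4 (X 1 * X 2 : P5) (X 0 * X 3)
    rw [h2 1 2 (by decide) (by decide), h2 0 3 (by decide) (by decide)] at this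
    unfold xP
    omega
  · exact ⟨xP * X 3 - (X 1 + X 2) * X 4, by unfold H0; ring⟩
  · have h2 : pderiv (4 : Fin 5) (2 : P5) = 0 := by
      simpa using Derivation.map_natCast (pderiv (4 : Fin 5) : Derivation ℂ P5 P5) 2
    simp [MvPolynomial.pderiv_X_of_ne (show (0 : Fin 5) ≠ 4 by decide), h2]
    ring

lemma ker0 (G : P5) (hG : ev0 G = 0) : H0 ∣ G :=
  ker_dvd (evg_io vy) ev0_H0 sat0 (io0 ▸ relPrime_p) (io1 ▸ relPrime_x) G hG

lemma sv_OO : sv vy ∈ OO :=
  add_mem (sub_mem vy_OO (pow_mem vx_OO 2)) (mul_mem vz_OO vu_OO)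

lemma lead_gen (i : Fin 5) : IsLead w1 (aw 1 i) (ev (X i)) (ev0 (X i)) := by
  have hs : sv vy ∈ WEQ w1 0 := OO_w1 sv_OO
  have hq : vu * vxi ∈ W0 := mul_mem vu_w1 vxi_w1
  have hε : vp * vu * vxi ∈ WEQ w1 (-1) := by
    rw [mul_assoc]; exact WEQ_mul' vp_w1 hq (by simp)
  have hd : sv YY = sv vy + vp * vu * vxi := by unfold sv YY; ring
  fin_cases i
  · show IsLead w1 (-1) (evg YY (X 0)) (evg vy (X 0))
    rw [evg0, evg0]
    exact IsLead.of_WEQ vp_w1
  · show IsLead w1 0 (evg YY (X 1)) (evg vy (X 1))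
    rw [evg1, evg1]
    refine ⟨hs, ?_⟩
    rw [hd, add_sub_cancel_left]
    exact WLT_of_WEQ (by norm_num) hε
  · show IsLead w1 0 (evg YY (X 2)) (evg vy (X 2))
    rw [evg2, evg2]
    refine ⟨add_mem hs vu_w1, ?_⟩
    have : sv YY + vu - (sv vy + vu) = vp * vu * vxi := by rw [hd]; ring
    rw [this]
    exact WLT_of_WEQ (by norm_num) hε
  · show IsLead w1 1 (evg YY (X 3)) (evg vy (X 3))
    rw [evg3, evg3]
    have h0 : vx - sv vy * (sv vy + vu) ∈ W0 :=
      sub_mem vx_w1 (mul_mem hs (add_mem hs vu_w1))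
    refine ⟨WEQ_mul' h0 vpi_w1 (by simp), ?_⟩
    have : (vx - sv YY * (sv YY + vu)) * vpi - (vx - sv vy * (sv vy + vu)) * vpi =
        -((vu * vxi) * (sv vy + sv vy + vu)) - (vp * vu * vxi) * (vu * vxi) := by
      rw [hd]
      linear_combination (-(vu * vxi) * (sv vy + sv vy + vu) - (vp * vu * vxi) * (vu * vxi)) *
        vp_vpi
    rw [this]
    refine sub_mem (neg_mem ?_) ?_
    · have : (vu * vxi) * (sv vy + sv vy + vu) ∈ W0 :=
        mul_mem hq (add_mem (add_mem hs hs) vu_w1)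
      exact WLT_of_WEQ (γ := 0) (by norm_num) this
    · exact WLT_of_WEQ (γ := -1) (by norm_num) (WEQ_mul' hε hq (by simp))
  · show IsLead w1 1 (evg YY (X 4)) (evg vy (X 4))
    rw [evg4, evg4]
    have h0 : vz - vx * sv vy ∈ W0 := sub_mem vz_w1 (mul_mem vx_w1 hs)
    refine ⟨WEQ_mul' h0 vpi_w1 (by simp), ?_⟩
    have : (vz - vx * sv YY) * vpi - (vz - vx * sv vy) * vpi = -vu := by
      rw [hd]
      linear_combination (-vu * vx * vxi) * vp_vpi - vu * vx_vxi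
    rw [this]
    exact neg_mem (WLT_of_WEQ (γ := 0) (by norm_num) vu_w1)

lemma lead_H : IsLead (wP 1) 1 HH H0 := by
  have h0 : (X 0 : P5) ∈ WEQ (wP 1) (-1) := X_mem_WEQ 1 0
  have h1 : (X 1 : P5) ∈ WEQ (wP 1) 0 := X_mem_WEQ 1 1
  have h2 : (X 2 : P5) ∈ WEQ (wP 1) 0 := X_mem_WEQ 1 2
  have h3 : (X 3 : P5) ∈ WEQ (wP 1) 1 := X_mem_WEQ 1 3
  have h4 : (X 4 : P5) ∈ WEQ (wP 1) 1 := X_mem_WEQ 1 4
  have hx : xP ∈ WEQ (wP 1) 0 :=
    add_mem (WEQ_mul' h1 h2 (by simp)) (WEQ_mul' h0 h3 (by simp))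
  refine ⟨?_, ?_⟩
  · refine sub_mem (sub_mem ?_ ?_) ?_
    · exact WEQ_mul' (WEQ_pow hx 2) h3 (by simp)
    · exact WEQ_mul' (add_mem one_mem_WEQ (WEQ_mul' hx (add_mem h1 h2) (by simp))) h4 (by simp)
    · exact WEQ_mul' h0 (WEQ_pow h4 2) (by simp)
  · have : HH - H0 = -uP := by unfold HH; ring
    rw [this]
    exact neg_mem (WLT_of_WEQ (γ := 0) (by norm_num) (sub_mem h2 h1))

/-- The equation of the center. -/
def ff : Lam := vz ^ 2 + vx * vz * vu - vx ^ 3
/-- Its leading form. -/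
def fh : Lam := vz * (vz + vx * vu)

lemma ff_OO : ff ∈ OO :=
  sub_mem (add_mem (pow_mem vz_OO 2) (mul_mem (mul_mem vx_OO vz_OO) vu_OO)) (pow_mem vx_OO 3)

lemma ff_vr : ff * vr = vz * vy + vz * (vz + 1) * vu - vx ^ 2 * (vz + 1) := by
  unfold ff vy
  linear_combination (vz * vu - vx ^ 2) * vx_vr

lemma ff_vr2 : ff * vr ^ 2 = vy ^ 2 + vy * (vz + 1) * vu - vx * (vz + 1) ^ 2 := by
  unfold ff vy
  linear_combination (vz * vu * vr - vx * (vx * vr + vz + 1)) * vx_vr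

lemma ff_vr_OO : ff * vr ∈ OO := by
  rw [ff_vr]
  have h1 : vz + 1 ∈ OO := add_mem vz_OO (one_mem _)
  exact sub_mem (add_mem (mul_mem vz_OO vy_OO) (mul_mem (mul_mem vz_OO h1) vu_OO))
    (mul_mem (pow_mem vx_OO 2) h1)

lemma ff_vr2_OO : ff * vr ^ 2 ∈ OO := by
  rw [ff_vr2]
  have h1 : vz + 1 ∈ OO := add_mem vz_OO (one_mem _)
  exact sub_mem (add_mem (pow_mem vy_OO 2) (mul_mem (mul_mem vy_OO h1) vu_OO))
    (mul_mem vx_OO (pow_mem h1 2))

lemma fh_vr : fh * vr = vz * (vy + (vz + 1) * vu) := by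
  unfold fh vy
  linear_combination (vz * vu) * vx_vr

lemma fh_vr2 : fh * vr ^ 2 = vy * (vy + (vz + 1) * vu) := by
  unfold fh vy
  linear_combination (vz * vu * vr) * vx_vr

lemma gen_UU (i : Fin 5) : ev0 (X i) ∈ UU ff (aw 1 i) (bw i) := by
  rw [mem_UU]
  fin_cases i
  · exact ⟨1, OO_NN (one_mem _), by simp [ev0, evg0, aw, bw, vp]⟩
  · exact ⟨sv vy, OO_NN sv_OO, by simp [ev0, evg1, aw, bw, mono_zero]⟩
  · exact ⟨sv vy + vu, OO_NN (add_mem sv_OO vu_OO), by simp [ev0, evg2, aw, bw, mono_zero]⟩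
  · refine ⟨-(vr ^ 2 + vu * vr ^ 1 - vx * vr ^ 0), ?_, ?_⟩
    · exact neg_mem (sub_mem (add_mem (vr_pow_NN (by simp [bw]))
        (OO_mul_NN vu_OO (vr_pow_NN (by simp [bw])))) (OO_mul_NN vx_OO (vr_pow_NN (by simp [bw]))))
    · show evg vy (X 3) = mono (-(((1 : ℕ) : ℤ) • ee 0)) * ff ^ 1 * _
      rw [evg3]
      have : mono (-(((1 : ℕ) : ℤ) • ee 0)) = vpi := by simp [vpi]
      rw [this]
      have h1 : vx - sv vy * (sv vy + vu) = -(ff * vr ^ 2 + vu * (ff * vr) - vx * ff) := by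
        rw [ff_vr, ff_vr2]
        unfold sv ff
        linear_combination (2 * vx - vu ^ 2 * 0) * vx_vy
      rw [h1]
      ring
  · refine ⟨-1, neg_mem (NN_mono (Nat.zero_le _) (OO_NN (one_mem _))), ?_⟩
    show evg vy (X 4) = mono (-(((1 : ℕ) : ℤ) • ee 0)) * ff ^ 1 * _
    rw [evg4]
    have : mono (-(((1 : ℕ) : ℤ) • ee 0)) = vpi := by simp [vpi]
    rw [this]
    have h1 : vz - vx * sv vy = -ff := by
      unfold sv ff
      linear_combination (-1) * vx_vy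
    rw [h1]
    ring

lemma fh_wl : fh ∈ WEQ (wl 1 1) (toLex (0, 0)) :=
  wl_mul vz_wl (add_mem vz_wl (wl_mul vx_wl vu_wl (by simp) (by simp))) (by simp) (by simp)

lemma lead_ff : IsLead (wl 1 1) (toLex (0, 0)) ff fh := by
  refine ⟨fh_wl, ?_⟩
  have : ff - fh = -(vx * vx * vx) := by unfold ff fh; ring
  rw [this]
  refine neg_mem (WLT_of_WEQ (γ := toLex (0, -3)) ?_ ?_)
  · simp [Prod.Lex.toLex_lt_toLex]
  · exact wl_mul (wl_mul vx_wl vx_wl rfl rfl) vx_wl (by simp) (by simp)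

lemma fh_th : fh ∈ WEQ th 2 := by
  have hz : vz ∈ WEQ th 1 := neg_mem (mono_mem_Sup (by simp [th_apply, ee]))
  have hx : vx ∈ WEQ th 1 := mono_mem_Sup (by simp [th_apply, ee])
  have hu : vu ∈ WEQ th 0 := mono_mem_Sup (by simp [th_apply, ee])
  exact WEQ_mul' hz (add_mem hz (WEQ_mul' hx hu (by simp))) (by simp)

lemma fh_ne : fh ≠ 0 := by
  refine mul_ne_zero vz_ne ?_
  intro h
  have h1 : vx * vu = mono (ee 2) := by
    rw [vz] at h
    linear_combination h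
  rw [vx, vu, mono_mul, mono, mono, single_left_inj one_ne_zero] at h1
  have := congrFun h1 1
  simp [ee] at this

theorem sagbi4 {n b : ℤ} {G : P5} {g : Lam} (hg : IsLead (wl 1 1) (toLex (n, b)) (ev G) g)
    {m : ℕ} (hm : m = 0 ∨ ((1 : ℕ) : ℤ) * (m - 1) < n) : g ∈ UU fh n m :=
  sagbi lead_gen lead_H ev_H ker0 gen_UU ff_OO ff_vr_OO ff_vr2_OO lead_ff fh_ne hg hm

open Polynomial in
lemma poly_lemma {L : Type*} [Field L] {x y z u o0 o1 o2 c : L[X]} (hc : IsUnit c)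
    (hq : x * y = z * (z + 1))
    (h : c = o0 * (z * (z + x * u)) + o1 * (z * (y + (z + 1) * u)) + o2 * (y * (y + (z + 1) * u)))
    (hx : x ≠ 0) (hu : u ≠ 0) : u.natDegree = 0 ∧ ∃ e : L, x = Polynomial.C e * z := by
  obtain ⟨d, hd⟩ := hc.exists_left_inv
  have hcop : IsCoprime z y :=
    ⟨d * (o0 * (z + x * u) + o1 * (y + (z + 1) * u)), d * o2 * (y + (z + 1) * u), by
      linear_combination hd - d * h⟩
  obtain ⟨e, he⟩ : z ∣ x := hcop.dvd_of_dvd_mul_right ⟨z + 1, hq⟩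
  have hz : z ≠ 0 := by rintro rfl; exact hx (by simpa using he)
  have he0 : e ≠ 0 := by rintro rfl; exact hx (by simpa using he)
  have hey : e * y = z + 1 := by
    apply mul_left_cancel₀ hz
    rw [← hq, he]; ring
  have hunit : IsUnit (1 + e * u) := by
    refine IsUnit.of_mul_eq_one (d * (o0 * z * z + o1 * z * y + o2 * y * y)) ?_
    linear_combination hd - d * h - d * o0 * z * u * he + d * (o1 * z + o2 * y) * u * hey
  have h1 : (e * u).natDegree = 0 := by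
    have h2 := natDegree_eq_zero_of_isUnit hunit
    have : e * u = (1 + e * u) - 1 := by ring
    rw [this]
    have := natDegree_sub_le (1 + e * u) 1
    rw [h2, natDegree_one] at this
    omega
  rw [natDegree_mul he0 hu] at h1
  refine ⟨by omega, e.coeff 0, ?_⟩
  rw [← eq_C_of_natDegree_eq_zero (by omega), he, mul_comm]

theorem core {c : Fin 4 → Lam} (hc : ∃ i, c i ≠ 0)
    (hnil : ∀ G, ∃ n, (eulerComb co c)^[n] (ev G) = 0) (hp : eulerComb co c vp = 0)
    {G : P5} (hG : eulerComb co c (ev G) = 0) : ev G ∈ WN := by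
  by_contra hno
  have hG0 : ev G ≠ 0 := by
    intro h; rw [h] at hno; exact hno WN.zero_mem
  obtain ⟨γ, g, hg0, hg⟩ := exists_lead (wl 1 1) hG0
  obtain ⟨⟨n, b⟩, rfl⟩ := toLex.surjective γ
  have hn : 0 < n := by
    by_contra hn
    exact hno (WLE_mono (not_lt.1 hn) (mem_WLE_w1_of_wl hg.mem_WLE))
  obtain ⟨l, rfl⟩ : ∃ l : ℕ, n = (l + 1 : ℕ) := ⟨(n - 1).toNat, by omega⟩
  have hU := sagbi4 hg (m := l + 1) (Or.inr (by push_cast; omega))
  obtain ⟨e, c', hc', hc0⟩ := exists_top (wl 1 1) c hc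
  set D := eulerComb co c' with hD
  have hDg : D g = 0 := by
    have := IsLead.eulerComb co hc' hg
    rw [hG] at this
    exact this.eq_zero_of_zero
  have hDp : D vp = 0 := by
    have := IsLead.eulerComb co hc' (IsLead.of_WEQ (vp_wl (α := 1) (β := 1)))
    rw [hp] at this
    exact this.eq_zero_of_zero
  have hx : vx ∈ repSub D inc :=
    lead_repSub hc' (IsLead.of_WEQ vx_wl) (by simpa [ev, evg_x] using hnil xP)
  have hz : vz ∈ repSub D inc :=
    lead_repSub hc' (IsLead.of_WEQ vz_wl) (by simpa [ev, evg_z] using hnil zP)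
  have hu : vu ∈ repSub D inc :=
    lead_repSub hc' (IsLead.of_WEQ vu_wl) (by simpa [ev, evg_u] using hnil uP)
  have hy : vy ∈ repSub D inc := by
    refine lead_repSub hc' (f := YY) (γ := toLex (0, 1)) ⟨vy_wl, ?_⟩
      (by simpa [ev, evg_y] using hnil yP)
    rw [YY, add_sub_cancel_left]
    refine mem_WLT_wl_of_w1 _ (WLT_of_WEQ (γ := -1) (by norm_num) ?_)
    exact WEQ_mul' (WEQ_mul vp_w1 vu_w1) vxi_w1 (by simp)
  have hO : OO ≤ repSub D inc := OO_le hx hy hz hu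
  obtain ⟨τ, hτ, hgτ⟩ := mem_UU.1 hU
  have h1z : vz + 1 ∈ OO := add_mem vz_OO (one_mem _)
  have hyu : vy + (vz + 1) * vu ∈ OO := add_mem vy_OO (mul_mem h1z vu_OO)
  obtain ⟨o0, ho0, o1, ho1, o2, ho2, hid⟩ := pow_mul_NN_ideal (S := OO) le_rfl (c := fh)
    (mul_mem vz_OO (add_mem vz_OO (mul_mem vx_OO vu_OO)))
    (by rw [fh_vr]; exact mul_mem vz_OO hyu) (by rw [fh_vr2]; exact mul_mem vy_OO hyu) hτ
  have hg' : fh ^ (l + 1) * τ = vp ^ (l + 1) * g := by
    rw [hgτ, vp, mono_pow, ← mul_assoc, ← mul_assoc, mono_mul]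
    have : (l + 1) • ee 0 + -(((l + 1 : ℕ) : ℤ) • ee 0) = 0 := by
      rw [natCast_zsmul]; simp
    rw [this, mono_zero, one_mul]
  have hDg' : D (vp ^ (l + 1) * g) = 0 := by
    rw [Derivation.leibniz, Derivation.leibniz_pow, hDg, hDp]; simp
  obtain ⟨x, hx⟩ := hx
  obtain ⟨y, hy⟩ := hy
  obtain ⟨z, hz⟩ := hz
  obtain ⟨u, hu⟩ := hu
  obtain ⟨q0, hq0⟩ := hO ho0
  obtain ⟨q1, hq1⟩ := hO ho1
  obtain ⟨q2, hq2⟩ := hO ho2
  have hq : x * y = z * (z + 1) := by
    refine (hx.mul hy).unique ?_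
    rw [vx_vy]
    exact hz.mul (hz.add Rep.one)
  have hyu' := hy.add ((hz.add Rep.one).mul hu)
  have hmain := (Rep.const (ι := inc) hDg').unique (q' := q0 * (z * (z + x * u)) +
      q1 * (z * (y + (z + 1) * u)) + q2 * (y * (y + (z + 1) * u))) (by
    rw [← hg', hid, fh_vr, fh_vr2, fh]
    exact ((hq0.mul (hz.mul (hz.add (hx.mul hu)))).add (hq1.mul (hz.mul hyu'))).add
      (hq2.mul (hy.mul hyu')))
  have hunit : IsUnit (Polynomial.C (inc (vp ^ (l + 1) * g))) := by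
    rw [Polynomial.isUnit_C, isUnit_iff_ne_zero]
    intro h0
    exact mul_ne_zero (pow_ne_zero _ vp_ne) hg0 (inc_injective (by rw [h0, map_zero]))
  obtain ⟨hu0, e', he'⟩ := poly_lemma hunit hq hmain (hx.ne_zero inc_injective vx_ne)
    (hu.ne_zero inc_injective vu_ne)
  have hDu := hu.deriv_eq_zero inc_injective hu0
  have hxz : D vx * vz = vx * D vz := by
    apply inc_injective
    rw [map_mul, map_mul, ← hx.coeff_one, ← hz.coeff_zero, ← hx.coeff_zero, ← hz.coeff_one, he']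
    simp only [Polynomial.coeff_C_mul]
    ring
  exact hg0 (final_zero hc0 hDp hDu hxz fh_ne fh_th (Nat.succ_pos l) hU hDg)

end

end Vale.Agent.P295.Four
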