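import Mathlib

/-!
Definitions for the stable coordinate conjecture.
-/

namespace Vale.Agent.P295

open MvPolynomial

/-- `f` is a coordinate of `R_n = ℂ[x_1, …, x_n]`: it is one member of a family of `n`
polynomials that generates `R_n` as a `ℂ`-algebra. -/
def IsCoordinate {n : ℕ} (f : MvPolynomial (Fin n) ℂ) : Prop :=
  ∃ g : Fin n → MvPolynomial (Fin n) ℂ, (∃ i, g i = f) ∧ Algebra.adjoin ℂ (Set.range g) = ⊤

/-- `f` is an `m`-stable coordinate: it is a coordinate of the polynomial ring in `n + m`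
variables, the first `n` of which are the variables of `R_n`. -/
def IsStableCoordinateOf {n : ℕ} (m : ℕ) (f : MvPolynomial (Fin n) ℂ) : Prop :=
  IsCoordinate (rename (Fin.castAdd m) f : MvPolynomial (Fin (n + m)) ℂ)

/-- `f` is a stable coordinate: an `m`-stable coordinate for some `m ≥ 1`. -/
def IsStableCoordinate {n : ℕ} (f : MvPolynomial (Fin n) ℂ) : Prop :=
  ∃ m, 1 ≤ m ∧ IsStableCoordinateOf m f

/-- The degree five polynomial `c (1 + (b c - a d) (a + d)) - d (b c - a d) ^ 2` in the four
variables `a, b, c, d`. -/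
noncomputable def quintic : MvPolynomial (Fin 4) ℂ :=
  X 2 * (1 + (X 1 * X 2 - X 0 * X 3) * (X 0 + X 3)) - X 3 * (X 1 * X 2 - X 0 * X 3) ^ 2

end Vale.Agent.P295
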