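import Mathlib

/-!
The exponential of a derivation on locally nilpotent elements, as a relation between
ring elements and polynomials over a field.
-/

set_option linter.unusedSectionVars false

namespace Vale.Agent.P295

open Polynomial

noncomputable section

variable {A L : Type*} [CommRing A] [Algebra ℂ A] [Field L] [CharZero L]

lemma deriv_iterate_mul (D : Derivation ℂ A A) (n : ℕ) (a b : A) :
    D^[n] (a * b) = ∑ ij ∈ Finset.HasAntidiagonal.antidiagonal n, n.choose ij.1 • (D^[ij.1] a * D^[ij.2] b) := by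
  induction n with
  | zero => simp
  | succ n ih =>
    rw [Finset.sum_antidiagonal_choose_succ_nsmul (M := A) (fun i j => D^[i] a * D^[j] b) n]
    simp only [Function.iterate_succ_apply', ih, map_sum, map_nsmul, Derivation.leibniz,
      smul_eq_mul, smul_add, Finset.sum_add_distrib, add_right_inj]
    refine Finset.sum_congr rfl fun ⟨i, j⟩ hij ↦ ?_
    rw [n.choose_symm_of_eq_add (Finset.HasAntidiagonal.mem_antidiagonal.1 hij).symm, mul_comm]

lemma deriv_iterate_add (D : Derivation ℂ A A) (n : ℕ) (a b : A) :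
    D^[n] (a + b) = D^[n] a + D^[n] b := by
  induction n with
  | zero => simp
  | succ n ih => simp [Function.iterate_succ_apply', ih]

lemma deriv_iterate_zero (D : Derivation ℂ A A) (n : ℕ) : D^[n] (0 : A) = 0 := by
  induction n with
  | zero => simp
  | succ n ih => simp [Function.iterate_succ_apply', ih]

lemma deriv_iterate_neg (D : Derivation ℂ A A) (n : ℕ) (a : A) : D^[n] (-a) = -D^[n] a := by
  induction n with
  | zero => simp
  | succ n ih => simp [Function.iterate_succ_apply', ih]

/-- `q` is the polynomial `exp (t D) g`, with coefficients pushed into `L`. -/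
def Rep (D : Derivation ℂ A A) (ι : A →+* L) (g : A) (q : L[X]) : Prop :=
  ∀ n, q.coeff n = ((n.factorial : ℕ) : L)⁻¹ * ι (D^[n] g)

variable {D : Derivation ℂ A A} {ι : A →+* L}

namespace Rep

lemma unique {g : A} {q q' : L[X]} (h : Rep D ι g q) (h' : Rep D ι g q') : q = q' := by
  ext n
  rw [h n, h' n]

lemma add {g g' : A} {q q' : L[X]} (h : Rep D ι g q) (h' : Rep D ι g' q') :
    Rep D ι (g + g') (q + q') := by
  intro n
  rw [coeff_add, h n, h' n, deriv_iterate_add, map_add, mul_add]

lemma neg {g : A} {q : L[X]} (h : Rep D ι g q) : Rep D ι (-g) (-q) := by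
  intro n
  rw [coeff_neg, h n, deriv_iterate_neg, map_neg, mul_neg]

lemma sub {g g' : A} {q q' : L[X]} (h : Rep D ι g q) (h' : Rep D ι g' q') :
    Rep D ι (g - g') (q - q') := by
  rw [sub_eq_add_neg, sub_eq_add_neg]
  exact h.add h'.neg

lemma mul {g g' : A} {q q' : L[X]} (h : Rep D ι g q) (h' : Rep D ι g' q') :
    Rep D ι (g * g') (q * q') := by
  intro n
  rw [coeff_mul, deriv_iterate_mul, map_sum, Finset.mul_sum]
  refine Finset.sum_congr rfl fun ⟨i, j⟩ hij ↦ ?_
  have hij' : i + j = n := Finset.HasAntidiagonal.mem_antidiagonal.1 hij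
  rw [h i, h' j, map_nsmul, map_mul, nsmul_eq_mul]
  have h1 : ((n.choose i : ℕ) : L) * (i.factorial : L) * (j.factorial : L) = n.factorial := by
    have := Nat.add_choose_mul_factorial_mul_factorial i j
    rw [hij', Nat.choose_symm_of_eq_add (a := i) (b := j) hij'.symm |>.symm] at this
    exact_mod_cast this
  have hi : (i.factorial : L) ≠ 0 := by exact_mod_cast i.factorial_ne_zero
  have hj : (j.factorial : L) ≠ 0 := by exact_mod_cast j.factorial_ne_zero
  have hc : ((n.choose i : ℕ) : L) ≠ 0 := by
    have : 0 < n.choose i := Nat.choose_pos (by omega)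
    exact_mod_cast this.ne'
  dsimp only
  rw [← h1]
  field_simp

lemma const {g : A} (h : D g = 0) : Rep D ι g (C (ι g)) := by
  intro n
  cases n with
  | zero => simp
  | succ n => simp [Function.iterate_succ_apply, h]

lemma one : Rep D ι 1 1 := by
  simpa using const (D := D) (ι := ι) (g := 1) (by simp)

lemma zero : Rep D ι 0 0 := by
  simpa using const (D := D) (ι := ι) (g := 0) (by simp)

lemma algebraMap (a : ℂ) : Rep D ι (algebraMap ℂ A a) (C (ι (algebraMap ℂ A a))) :=
  const (by simp)

lemma pow {g : A} {q : L[X]} (h : Rep D ι g q) (n : ℕ) : Rep D ι (g ^ n) (q ^ n) := by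
  induction n with
  | zero => simpa using one
  | succ n ih => rw [pow_succ, pow_succ]; exact ih.mul h

lemma coeff_zero {g : A} {q : L[X]} (h : Rep D ι g q) : q.coeff 0 = ι g := by
  simpa using h 0

lemma coeff_one {g : A} {q : L[X]} (h : Rep D ι g q) : q.coeff 1 = ι (D g) := by
  simpa using h 1

lemma derivative {g : A} {q : L[X]} (h : Rep D ι g q) : Rep D ι (D g) (derivative q) := by
  intro n
  rw [coeff_derivative, h (n + 1), Function.iterate_succ_apply, Nat.factorial_succ]
  have hn : (n.factorial : L) ≠ 0 := by exact_mod_cast n.factorial_ne_zero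
  have hn1 : ((n : L) + 1) ≠ 0 := by exact_mod_cast Nat.succ_ne_zero n
  push_cast
  field_simp

lemma ne_zero (hι : Function.Injective ι) {g : A} {q : L[X]} (h : Rep D ι g q) (hg : g ≠ 0) :
    q ≠ 0 := by
  intro h0
  have := h.coeff_zero
  rw [h0, Polynomial.coeff_zero] at this
  exact hg (hι (by rw [← this, map_zero]))

lemma deriv_eq_zero (hι : Function.Injective ι) {g : A} {q : L[X]} (h : Rep D ι g q)
    (hq : q.natDegree = 0) : D g = 0 := by
  have := h.coeff_one
  rw [coeff_eq_zero_of_natDegree_lt (by omega)] at this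
  exact hι (by rw [← this, map_zero])

end Rep

lemma exists_rep {g : A} (h : ∃ n, D^[n] g = 0) : ∃ q : L[X], Rep D ι g q := by
  obtain ⟨N, hN⟩ := h
  refine ⟨∑ n ∈ Finset.range N, monomial n (((n.factorial : ℕ) : L)⁻¹ * ι (D^[n] g)), ?_⟩
  intro n
  rw [finsetSum_coeff]
  simp only [coeff_monomial, Finset.sum_ite_eq', Finset.mem_range]
  split_ifs with hn
  · rfl
  · obtain ⟨k, rfl⟩ := Nat.exists_eq_add_of_le' (not_lt.1 hn)
    rw [Function.iterate_add_apply, hN, deriv_iterate_zero]
    simp

variable (D ι) in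
/-- The subalgebra of elements with a polynomial exponential. -/
def repSub : Subalgebra ℂ A where
  carrier := {g | ∃ q : L[X], Rep D ι g q}
  mul_mem' := fun ⟨_, h⟩ ⟨_, h'⟩ => ⟨_, h.mul h'⟩
  add_mem' := fun ⟨_, h⟩ ⟨_, h'⟩ => ⟨_, h.add h'⟩
  algebraMap_mem' a := ⟨_, Rep.algebraMap a⟩

lemma mem_repSub {g : A} : g ∈ repSub D ι ↔ ∃ q : L[X], Rep D ι g q := Iff.rfl

end

end Vale.Agent.P295
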