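import Vale.Agent.P295.Sagbi
import Vale.Agent.P295.Exp

/-!
Common end of the argument.
-/

set_option linter.unusedSectionVars false

namespace Vale.Agent.P295

open AddMonoidAlgebra

noncomputable section

lemma eulerComb_mono (c : Fin 4 → Lam) (i : Fin 4) :
    eulerComb co c (mono (ee i)) = c i * mono (ee i) := by
  rw [eulerComb_apply, Finset.sum_eq_single i]
  · rw [mono, euler_single]
    simp [co_apply, ee]
  · intro j _ hj
    rw [mono, euler_single]
    simp [co_apply, ee, hj]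
  · simp

lemma euler_th (g : Lam) : euler th g = euler (co 1) g + euler (co 2) g := by
  ext m
  simp only [coeff_euler, coeff_add, Finsupp.add_apply, th_apply, co_apply]
  push_cast
  ring

theorem final_zero {c : Fin 4 → Lam} (hc : ∃ i, c i ≠ 0) (hp : eulerComb co c vp = 0)
    (hu : eulerComb co c vu = 0) (hxz : eulerComb co c vx * vz = vx * eulerComb co c vz)
    {fh : Lam} (hfh : fh ≠ 0) (hth : fh ∈ WEQ th 2) {n : ℤ} {m : ℕ} (hm : 0 < m) {g : Lam}
    (hg : g ∈ UU fh n m) (hD : eulerComb co c g = 0) : g = 0 := by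
  have h0 : c 0 = 0 := by
    rw [vp, eulerComb_mono] at hp
    exact (mul_eq_zero.1 hp).resolve_right (mono_ne_zero _)
  have h3 : c 3 = 0 := by
    rw [vu, eulerComb_mono] at hu
    exact (mul_eq_zero.1 hu).resolve_right (mono_ne_zero _)
  have h12 : c 1 = c 2 := by
    rw [vx, vz, map_neg, eulerComb_mono, eulerComb_mono] at hxz
    have : (c 1 - c 2) * (mono (ee 1) * mono (ee 2)) = 0 := by linear_combination -hxz
    exact sub_eq_zero.1
      ((mul_eq_zero.1 this).resolve_right (mul_ne_zero (mono_ne_zero _) (mono_ne_zero _)))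
  have h2 : c 2 ≠ 0 := by
    obtain ⟨i, hi⟩ := hc
    fin_cases i
    · exact absurd h0 hi
    · rw [← h12]; exact hi
    · exact hi
    · exact absurd h3 hi
  have hθ : euler th g = 0 := by
    rw [eulerComb_apply, Fin.sum_univ_four, h0, h3, h12] at hD
    have : c 2 * euler th g = 0 := by
      rw [euler_th]
      linear_combination hD
    exact (mul_eq_zero.1 this).resolve_left h2
  rw [mem_UU] at hg
  obtain ⟨τ, hτ, rfl⟩ := hg
  have hA : mono (-(n • ee 0)) * fh ^ m ∈ WEQ th (2 * m) := by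
    refine WEQ_mul' (α := 0) (mono_mem_Sup ?_) (WEQ_pow hth m) (by simp [mul_comm])
    simp [th_apply, ee]
  have hA0 : mono (-(n • ee 0)) * fh ^ m ≠ 0 := mul_ne_zero (mono_ne_zero _) (pow_ne_zero _ hfh)
  set A := mono (-(n • ee 0)) * fh ^ m
  rw [Derivation.leibniz, euler_of_WEQ th hA, smul_eq_mul, smul_eq_mul, mul_smul_comm] at hθ
  have h4 : euler th τ = ((-(2 * m) : ℤ) : ℂ) • τ := by
    apply mul_left_cancel₀ hA0
    rw [mul_smul_comm, Int.cast_neg, neg_smul, mul_comm A τ]
    exact eq_neg_of_add_eq_zero_left hθ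
  have h5 := NN_eq_zero_of_th hτ (by omega) (mem_WEQ_of_euler th h4)
  rw [h5, mul_zero]

/-- The fraction field of the Laurent ring. -/
abbrev LL := FractionRing Lam

instance : CharZero LL := algebraRat.charZero LL

/-- The inclusion in the fraction field. -/
def inc : Lam →+* LL := algebraMap Lam LL

lemma inc_injective : Function.Injective inc := IsFractionRing.injective Lam LL

lemma lead_repSub {α β : ℤ} {c c' : Fin 4 → Lam} {e : Lex (ℤ × ℤ)}
    (hc : ∀ i, IsLead (wl α β) e (c i) (c' i)) {γ : Lex (ℤ × ℤ)} {f g : Lam}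
    (h : IsLead (wl α β) γ f g) (hf : ∃ n, (eulerComb co c)^[n] f = 0) :
    g ∈ repSub (eulerComb co c') inc := by
  obtain ⟨n, hn⟩ := hf
  refine exists_rep ⟨n, ?_⟩
  have := IsLead.eulerComb_iterate co hc h n
  rw [hn] at this
  exact this.eq_zero_of_zero

/-- Transport of a locally nilpotent derivation to the Laurent ring. -/
theorem transport {B : Type*} [CommRing B] [Algebra ℂ B] {ι : P4 →ₐ[ℂ] P5} {H : P5}
    {φ : P5 →ₐ[ℂ] Lam} (hι : ∀ i, φ (ι (MvPolynomial.X i)) = mono (ee i))
    (hH : φ H = 0) (hsat : ∀ i, MvPolynomial.X i ∈ SatSub ι H)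
    (π : P5 →ₐ[ℂ] B) (hπ : Function.Surjective π) (hπH : π H = 0) (ψ : B →ₐ[ℂ] Lam)
    (hψ : ∀ G, ψ (π G) = φ G) (δ : B →ₗ[ℂ] B) (hδ : ∀ a b, δ (a * b) = a * δ b + b * δ a) :
    ∃ c : Fin 4 → Lam, ∀ b, eulerComb co c (ψ b) = ψ (δ b) := by
  let Ψ : P5 →ₗ[ℂ] Lam := ψ.toLinearMap ∘ₗ δ ∘ₗ π.toLinearMap
  have hΨ : ∀ G, Ψ G = ψ (δ (π G)) := fun G => rfl
  refine ⟨fun i => Ψ (ι (MvPolynomial.X i)) * mono (-ee i), fun b => ?_⟩
  obtain ⟨G, rfl⟩ := hπ b
  rw [hψ, ← hΨ]
  refine transfer hι hH hsat Ψ ?_ ?_ G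
  · intro a b
    simp only [hΨ, map_mul, hδ, map_add, hψ]
  · rw [hΨ, hπH, map_zero, map_zero]

lemma pderiv_nilpotent {σ : Type*} (j : σ) (G : MvPolynomial σ ℂ) :
    ∃ n, (MvPolynomial.pderiv j)^[n] G = 0 := by
  classical
  let S : Subalgebra ℂ (MvPolynomial σ ℂ) :=
    repSub (MvPolynomial.pderiv j) (algebraMap (MvPolynomial σ ℂ) (FractionRing (MvPolynomial σ ℂ)))
  have hS : G ∈ S := by
    induction G using MvPolynomial.induction_on with
    | C a => exact S.algebraMap_mem a
    | add a b ha hb => exact S.add_mem ha hb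
    | mul_X a i ha =>
      refine S.mul_mem ha (exists_rep ⟨2, ?_⟩)
      by_cases h : i = j
      · subst h; simp
      · simp [MvPolynomial.pderiv_X_of_ne h]
  obtain ⟨q, hq⟩ := hS
  refine ⟨q.natDegree + 1, ?_⟩
  have := hq (q.natDegree + 1)
  rw [Polynomial.coeff_eq_zero_of_natDegree_lt (Nat.lt_succ_self _)] at this
  have h2 := (mul_eq_zero.1 this.symm).resolve_left
    (inv_ne_zero (by exact_mod_cast Nat.factorial_ne_zero _))
  exact (IsFractionRing.injective (MvPolynomial σ ℂ) (FractionRing (MvPolynomial σ ℂ)))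
    (by rw [h2, map_zero])

/-- A surjective algebra endomorphism of a noetherian ring is injective. -/
lemma injective_of_surjective {A : Type*} [CommRing A] [IsNoetherianRing A] (f : A →+* A)
    (hf : Function.Surjective f) : Function.Injective f := by
  have hmono : Monotone fun n : ℕ => RingHom.ker (f ^ n) := by
    refine monotone_nat_of_le_succ fun n a ha => ?_
    rw [RingHom.mem_ker] at ha ⊢
    rw [pow_succ', RingHom.mul_def, RingHom.comp_apply, ha, map_zero]
  obtain ⟨n, hn⟩ := monotone_stabilizes_iff_noetherian.2 (inferInstance : IsNoetherian A A)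
    ⟨fun n : ℕ => RingHom.ker (f ^ n), hmono⟩
  rw [injective_iff_map_eq_zero]
  intro a ha
  have hs : Function.Surjective (f ^ n) := by
    rw [RingHom.coe_pow]
    exact hf.iterate n
  obtain ⟨b, rfl⟩ := hs a
  have h1 : b ∈ RingHom.ker (f ^ (n + 1)) := by
    rw [RingHom.mem_ker, pow_succ', RingHom.mul_def, RingHom.comp_apply, ha]
  have h2 := hn (n + 1) (Nat.le_succ n)
  simp only [OrderHom.coe_mk] at h2
  rw [← h2] at h1
  exact h1

end

end Vale.Agent.P295
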