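import Vale.Agent.P295.Lead

/-!
The Laurent ring in `p, x, z, u`, the quadric `x y = z (z + 1)`, and the modules `N k`.
-/

set_option linter.unusedSectionVars false

namespace Vale.Agent.P295

open AddMonoidAlgebra

noncomputable section

/-- Exponent vectors: index `0` is `p`, `1` is `x`, `2` is `-z`, `3` is `u`. -/
abbrev Ex := Fin 4 → ℤ

/-- The Laurent polynomial ring. -/
abbrev Lam := AddMonoidAlgebra ℂ Ex

/-- A Laurent monomial. -/
def mono (m : Ex) : Lam := single m 1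

lemma mono_mul (m n : Ex) : mono m * mono n = mono (m + n) := by
  simp [mono, single_mul_single]

lemma mono_zero : mono 0 = 1 := rfl

lemma mono_pow (m : Ex) (n : ℕ) : mono m ^ n = mono (n • m) := by
  simp [mono, single_pow]

lemma mono_ne_zero (m : Ex) : mono m ≠ 0 := by
  simp [mono]

lemma mono_mem_Sup {S : Set Ex} {m : Ex} (h : m ∈ S) : mono m ∈ Sup S := single_mem_Sup h _

/-- Unit exponent vectors. -/
def ee (i : Fin 4) : Ex := Pi.single i 1

/-- Coordinate functionals. -/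
def co (i : Fin 4) : Ex →+ ℤ := Pi.evalAddMonoidHom (fun _ => ℤ) i

lemma co_apply (i : Fin 4) (m : Ex) : co i m = m i := rfl

def vp : Lam := mono (ee 0)
def vpi : Lam := mono (-ee 0)
def vx : Lam := mono (ee 1)
def vxi : Lam := mono (-ee 1)
def vz : Lam := -mono (ee 2)
def vu : Lam := mono (ee 3)
def vr : Lam := (vz + 1) * vxi
def vy : Lam := vz * vr

lemma vp_vpi : vp * vpi = 1 := by simp [vp, vpi, mono_mul, mono_zero]
lemma vx_vxi : vx * vxi = 1 := by simp [vx, vxi, mono_mul, mono_zero]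
lemma vp_ne : vp ≠ 0 := mono_ne_zero _
lemma vx_ne : vx ≠ 0 := mono_ne_zero _
lemma vz_ne : vz ≠ 0 := neg_ne_zero.2 (mono_ne_zero _)
lemma vu_ne : vu ≠ 0 := mono_ne_zero _
lemma vx_vr : vx * vr = vz + 1 := by
  unfold vr
  linear_combination (vz + 1) * vx_vxi
lemma vx_vy : vx * vy = vz * (vz + 1) := by
  unfold vy
  linear_combination vz * vx_vr

/-- The first weight: minus the exponent of `p`. -/
def w1 : Ex →+ ℤ := -co 0

lemma w1_apply (m : Ex) : w1 m = -m 0 := rfl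

/-- The lexicographic weight. -/
def wl (α β : ℤ) : Ex →+ Lex (ℤ × ℤ) where
  toFun m := toLex (-m 0, -α * m 1 + β * m 3)
  map_zero' := by simp
  map_add' m n := by
    rw [← toLex_add]
    congr 1
    simp only [Pi.add_apply, Prod.mk_add_mk, Prod.mk.injEq]
    constructor <;> ring

lemma wl_apply (α β : ℤ) (m : Ex) : wl α β m = toLex (-m 0, -α * m 1 + β * m 3) := rfl

/-- The total degree in `x` and `z`. -/
def th : Ex →+ ℤ := co 1 + co 2

lemma th_apply (m : Ex) : th m = m 1 + m 2 := rfl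

variable {α β : ℤ}

lemma mem_WEQ_w1_of_wl {a b : ℤ} {f : Lam} (h : f ∈ WEQ (wl α β) (toLex (a, b))) :
    f ∈ WEQ w1 a := by
  refine Sup_mono ?_ h
  intro m hm
  simp only [Set.mem_ofPred_eq, wl_apply, toLex_inj, Prod.mk.injEq] at hm
  exact hm.1

lemma mem_WLE_w1_of_wl {a b : ℤ} {f : Lam} (h : f ∈ WLE (wl α β) (toLex (a, b))) :
    f ∈ WLE w1 a := by
  refine Sup_mono ?_ h
  intro m hm
  simp only [Set.mem_ofPred_eq, wl_apply, Prod.Lex.toLex_le_toLex] at hm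
  simp only [Set.mem_ofPred_eq, w1_apply]
  omega

lemma mem_WLT_wl_of_w1 {a : ℤ} (b : ℤ) {f : Lam} (h : f ∈ WLT w1 a) :
    f ∈ WLT (wl α β) (toLex (a, b)) := by
  refine Sup_mono ?_ h
  intro m hm
  simp only [Set.mem_ofPred_eq, wl_apply, Prod.Lex.toLex_lt_toLex]
  simp only [Set.mem_ofPred_eq, w1_apply] at hm
  omega

lemma vp_wl : vp ∈ WEQ (wl α β) (toLex (-1, 0)) :=
  mono_mem_Sup (by simp [wl_apply, ee])
lemma vpi_wl : vpi ∈ WEQ (wl α β) (toLex (1, 0)) :=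
  mono_mem_Sup (by simp [wl_apply, ee])
lemma vx_wl : vx ∈ WEQ (wl α β) (toLex (0, -α)) :=
  mono_mem_Sup (by simp [wl_apply, ee])
lemma vxi_wl : vxi ∈ WEQ (wl α β) (toLex (0, α)) :=
  mono_mem_Sup (by simp [wl_apply, ee])
lemma vz_wl : vz ∈ WEQ (wl α β) (toLex (0, 0)) :=
  Submodule.neg_mem _ (mono_mem_Sup (by simp [wl_apply, ee]))
lemma vu_wl : vu ∈ WEQ (wl α β) (toLex (0, β)) :=
  mono_mem_Sup (by simp [wl_apply, ee])
lemma one_wl : (1 : Lam) ∈ WEQ (wl α β) (toLex (0, 0)) := one_mem_WEQ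

lemma wl_mul {a b a' b' a'' b'' : ℤ} {f g : Lam} (hf : f ∈ WEQ (wl α β) (toLex (a, b)))
    (hg : g ∈ WEQ (wl α β) (toLex (a', b'))) (ha : a + a' = a'') (hb : b + b' = b'') :
    f * g ∈ WEQ (wl α β) (toLex (a'', b'')) := by
  refine WEQ_mul' hf hg ?_
  rw [← toLex_add, Prod.mk_add_mk, ha, hb]

lemma vr_wl : vr ∈ WEQ (wl α β) (toLex (0, α)) :=
  wl_mul (Submodule.add_mem _ vz_wl one_wl) vxi_wl (by simp) (by simp)
lemma vy_wl : vy ∈ WEQ (wl α β) (toLex (0, α)) :=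
  wl_mul vz_wl vr_wl (by simp) (by simp)

lemma vp_w1 : vp ∈ WEQ w1 (-1) := mem_WEQ_w1_of_wl (vp_wl (α := 0) (β := 0))
lemma vpi_w1 : vpi ∈ WEQ w1 1 := mem_WEQ_w1_of_wl (vpi_wl (α := 0) (β := 0))
lemma vx_w1 : vx ∈ WEQ w1 0 := mem_WEQ_w1_of_wl (vx_wl (α := 0) (β := 0))
lemma vxi_w1 : vxi ∈ WEQ w1 0 := mem_WEQ_w1_of_wl (vxi_wl (α := 0) (β := 0))
lemma vz_w1 : vz ∈ WEQ w1 0 := mem_WEQ_w1_of_wl (vz_wl (α := 0) (β := 0))
lemma vu_w1 : vu ∈ WEQ w1 0 := mem_WEQ_w1_of_wl (vu_wl (α := 0) (β := 0))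
lemma vr_w1 : vr ∈ WEQ w1 0 := mem_WEQ_w1_of_wl (vr_wl (α := 0) (β := 0))
lemma vy_w1 : vy ∈ WEQ w1 0 := mem_WEQ_w1_of_wl (vy_wl (α := 0) (β := 0))

/-- The weight zero subalgebra for the first weight. -/
def W0 : Subalgebra ℂ Lam where
  carrier := WEQ w1 0
  mul_mem' ha hb := WEQ_mul' ha hb (add_zero 0)
  add_mem' ha hb := Submodule.add_mem _ ha hb
  algebraMap_mem' a := algebraMap_mem_WEQ a

/-- The nonpositive weight subalgebra for the first weight. -/
def WN : Subalgebra ℂ Lam where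
  carrier := WLE w1 0
  mul_mem' ha hb := by simpa using WLE_mul ha hb
  add_mem' ha hb := Submodule.add_mem _ ha hb
  algebraMap_mem' a := WEQ_le_WLE (algebraMap_mem_WEQ a)

/-- The coordinate ring of the quadric times a line. -/
def OO : Subalgebra ℂ Lam := Algebra.adjoin ℂ {vx, vy, vz, vu}

lemma vx_OO : vx ∈ OO := Algebra.subset_adjoin (by simp)
lemma vy_OO : vy ∈ OO := Algebra.subset_adjoin (by simp)
lemma vz_OO : vz ∈ OO := Algebra.subset_adjoin (by simp)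
lemma vu_OO : vu ∈ OO := Algebra.subset_adjoin (by simp)

lemma OO_le {S : Subalgebra ℂ Lam} (hx : vx ∈ S) (hy : vy ∈ S) (hz : vz ∈ S) (hu : vu ∈ S) :
    OO ≤ S := by
  refine Algebra.adjoin_le ?_
  intro g hg
  simp only [Set.mem_insert_iff, Set.mem_singleton_iff] at hg
  rcases hg with rfl | rfl | rfl | rfl <;> assumption

lemma OO_w1 {g : Lam} (hg : g ∈ OO) : g ∈ WEQ w1 0 :=
  OO_le (S := W0) vx_w1 vy_w1 vz_w1 vu_w1 hg

/-- Monomials in the generators of `OO`. -/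
def Mon : Submonoid Lam := Submonoid.closure {vx, vy, vz, vu}

/-- Spanning set of `N k`. -/
def TT (k : ℕ) : Set Lam := {g | ∃ μ ∈ Mon, ∃ i ≤ k, g = μ * vr ^ i}

/-- The `OO`-span of `r ^ i`, `i ≤ k`. -/
def NN (k : ℕ) : Submodule ℂ Lam := Submodule.span ℂ (TT k)

lemma Mon_OO {μ : Lam} (h : μ ∈ Mon) : μ ∈ OO := by
  have : (Mon : Set Lam) ⊆ (OO.toSubmodule : Set Lam) := by
    unfold OO
    rw [Algebra.adjoin_eq_span]
    exact Submodule.subset_span
  exact this h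

lemma NN_induction {k : ℕ} {P : Lam → Prop} (h0 : P 0) (hadd : ∀ f g, P f → P g → P (f + g))
    (hsmul : ∀ (a : ℂ) f, P f → P (a • f)) (hgen : ∀ μ ∈ Mon, ∀ i ≤ k, P (μ * vr ^ i))
    {τ : Lam} (hτ : τ ∈ NN k) : P τ := by
  induction hτ using Submodule.span_induction with
  | mem g hg =>
    obtain ⟨μ, hμ, i, hi, rfl⟩ := hg
    exact hgen μ hμ i hi
  | zero => exact h0
  | add f g _ _ hf hg => exact hadd f g hf hg
  | smul a f _ hf => exact hsmul a f hf

lemma NN_gen {k : ℕ} {μ : Lam} (hμ : μ ∈ Mon) {i : ℕ} (hi : i ≤ k) : μ * vr ^ i ∈ NN k :=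
  Submodule.subset_span ⟨μ, hμ, i, hi, rfl⟩

lemma NN_mul {k l : ℕ} {a b : Lam} (ha : a ∈ NN k) (hb : b ∈ NN l) : a * b ∈ NN (k + l) := by
  refine NN_induction (P := fun a => a * b ∈ NN (k + l)) (by simp) ?_ ?_ ?_ ha
  · intro f g hf hg
    rw [add_mul]; exact Submodule.add_mem _ hf hg
  · intro c f hf
    rw [smul_mul_assoc]; exact Submodule.smul_mem _ _ hf
  · intro μ hμ i hi
    refine NN_induction (P := fun b => μ * vr ^ i * b ∈ NN (k + l)) (by simp) ?_ ?_ ?_ hb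
    · intro f g hf hg
      rw [mul_add]; exact Submodule.add_mem _ hf hg
    · intro c f hf
      rw [mul_smul_comm]; exact Submodule.smul_mem _ _ hf
    · intro ν hν j hj
      have : μ * vr ^ i * (ν * vr ^ j) = (μ * ν) * vr ^ (i + j) := by ring
      rw [this]
      exact NN_gen (Mon.mul_mem hμ hν) (by omega)

lemma NN_mono {k l : ℕ} (h : k ≤ l) {a : Lam} (ha : a ∈ NN k) : a ∈ NN l := by
  refine Submodule.span_mono ?_ ha
  rintro g ⟨μ, hμ, i, hi, rfl⟩
  exact ⟨μ, hμ, i, hi.trans h, rfl⟩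

lemma OO_NN {a : Lam} (ha : a ∈ OO) : a ∈ NN 0 := by
  have : a ∈ OO.toSubmodule := ha
  unfold OO at this
  rw [Algebra.adjoin_eq_span] at this
  refine Submodule.span_mono ?_ this
  intro μ hμ
  exact ⟨μ, hμ, 0, le_rfl, by simp⟩

lemma OO_mul_NN {k : ℕ} {a b : Lam} (ha : a ∈ OO) (hb : b ∈ NN k) : a * b ∈ NN k := by
  simpa using NN_mul (OO_NN ha) hb

lemma vr_pow_NN {k i : ℕ} (hi : i ≤ k) : vr ^ i ∈ NN k := by
  simpa using NN_gen (k := k) Mon.one_mem hi

lemma NN_pow {k : ℕ} {a : Lam} (ha : a ∈ NN k) (n : ℕ) : a ^ n ∈ NN (k * n) := by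
  induction n with
  | zero => simpa using OO_NN OO.one_mem
  | succ n ih => rw [pow_succ, Nat.mul_succ]; exact NN_mul ih ha

lemma Mon_wl {μ : Lam} (h : μ ∈ Mon) : ∃ b, μ ∈ WEQ (wl α β) (toLex (0, b)) := by
  induction h using Submonoid.closure_induction with
  | mem g hg =>
    simp only [Set.mem_insert_iff, Set.mem_singleton_iff] at hg
    rcases hg with rfl | rfl | rfl | rfl
    · exact ⟨_, vx_wl⟩
    · exact ⟨_, vy_wl⟩
    · exact ⟨_, vz_wl⟩
    · exact ⟨_, vu_wl⟩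
  | one => exact ⟨_, one_wl⟩
  | mul f g _ _ hf hg =>
    obtain ⟨a, ha⟩ := hf
    obtain ⟨b, hb⟩ := hg
    exact ⟨a + b, wl_mul ha hb (by simp) rfl⟩

lemma vr_pow_wl (i : ℕ) : vr ^ i ∈ WEQ (wl α β) (toLex (0, i * α)) := by
  induction i with
  | zero => simpa using one_wl
  | succ i ih => rw [pow_succ]; exact wl_mul ih vr_wl (by simp) (by push_cast; ring)

lemma NN_part {k : ℕ} (γ : Lex (ℤ × ℤ)) {τ : Lam} (hτ : τ ∈ NN k) :
    part {m | wl α β m = γ} τ ∈ NN k := by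
  refine NN_induction (P := fun τ => part {m | wl α β m = γ} τ ∈ NN k) (by simp) ?_ ?_ ?_ hτ
  · intro f g hf hg
    rw [map_add]; exact Submodule.add_mem _ hf hg
  · intro c f hf
    rw [map_smul]; exact Submodule.smul_mem _ _ hf
  · intro μ hμ i hi
    obtain ⟨b, hb⟩ := Mon_wl (α := α) (β := β) hμ
    have h := wl_mul hb (vr_pow_wl i) rfl rfl
    by_cases hγ : γ = toLex (0 + 0, b + i * α)
    · rw [hγ, part_of_mem h]
      exact NN_gen hμ hi
    · rw [part_of_disjoint _ h]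
      · exact Submodule.zero_mem _
      · intro m hm hm'
        exact hγ (hm'.symm.trans hm)

lemma NN_w1 {k : ℕ} {τ : Lam} (hτ : τ ∈ NN k) : τ ∈ WEQ w1 0 := by
  refine NN_induction (P := fun τ => τ ∈ WEQ w1 0) (by simp) ?_ ?_ ?_ hτ
  · intro f g hf hg
    exact Submodule.add_mem _ hf hg
  · intro c f hf
    exact Submodule.smul_mem _ _ hf
  · intro μ hμ i _
    exact W0.mul_mem (OO_w1 (Mon_OO hμ)) (W0.pow_mem vr_w1 i)

/-- If `c, c r, c r ^ 2` lie in a subalgebra containing `OO` then so does `c ^ l r ^ i`. -/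
lemma pow_mul_vr_pow_mem {S : Subalgebra ℂ Lam} {c : Lam} (h0 : c ∈ S) (h1 : c * vr ∈ S)
    (h2 : c * vr ^ 2 ∈ S) (l : ℕ) : ∀ i ≤ 2 * l, c ^ l * vr ^ i ∈ S := by
  induction l with
  | zero =>
    intro i hi
    obtain rfl : i = 0 := by omega
    simp
  | succ l ih =>
    intro i hi
    rcases Nat.lt_or_ge i 2 with hlt | hge
    · have : c ^ (l + 1) * vr ^ i = c ^ l * (c * vr ^ i) := by ring
      rw [this]
      refine S.mul_mem (S.pow_mem h0 l) ?_
      interval_cases i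
      · simpa using h0
      · simpa using h1
    · obtain ⟨j, rfl⟩ := Nat.exists_eq_add_of_le hge
      have : c ^ (l + 1) * vr ^ (2 + j) = (c * vr ^ 2) * (c ^ l * vr ^ j) := by ring
      rw [this]
      exact S.mul_mem h2 (ih j (by omega))

lemma pow_mul_NN_mem {S : Subalgebra ℂ Lam} (hS : OO ≤ S) {c : Lam} (h0 : c ∈ S)
    (h1 : c * vr ∈ S) (h2 : c * vr ^ 2 ∈ S) {l : ℕ} {τ : Lam} (hτ : τ ∈ NN (2 * l)) :
    c ^ l * τ ∈ S := by
  refine NN_induction (P := fun τ => c ^ l * τ ∈ S) (by simp) ?_ ?_ ?_ hτ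
  · intro f g hf hg
    rw [mul_add]; exact S.add_mem hf hg
  · intro a f hf
    rw [mul_smul_comm]; exact S.smul_mem hf _
  · intro μ hμ i hi
    have : c ^ l * (μ * vr ^ i) = μ * (c ^ l * vr ^ i) := by ring
    rw [this]
    exact S.mul_mem (hS (Mon_OO hμ)) (pow_mul_vr_pow_mem h0 h1 h2 l i hi)

lemma pow_mul_NN_ideal {S : Subalgebra ℂ Lam} (hS : OO ≤ S) {c : Lam} (h0 : c ∈ S)
    (h1 : c * vr ∈ S) (h2 : c * vr ^ 2 ∈ S) {l : ℕ} {τ : Lam} (hτ : τ ∈ NN (2 * (l + 1))) :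
    ∃ o0 ∈ S, ∃ o1 ∈ S, ∃ o2 ∈ S,
      c ^ (l + 1) * τ = o0 * c + o1 * (c * vr) + o2 * (c * vr ^ 2) := by
  refine NN_induction (P := fun τ => ∃ o0 ∈ S, ∃ o1 ∈ S, ∃ o2 ∈ S,
      c ^ (l + 1) * τ = o0 * c + o1 * (c * vr) + o2 * (c * vr ^ 2)) ?_ ?_ ?_ ?_ hτ
  · exact ⟨0, S.zero_mem, 0, S.zero_mem, 0, S.zero_mem, by simp⟩
  · rintro f g ⟨a0, ha0, a1, ha1, a2, ha2, hf⟩ ⟨b0, hb0, b1, hb1, b2, hb2, hg⟩
    refine ⟨a0 + b0, S.add_mem ha0 hb0, a1 + b1, S.add_mem ha1 hb1, a2 + b2, S.add_mem ha2 hb2, ?_⟩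
    linear_combination hf + hg
  · rintro a f ⟨a0, ha0, a1, ha1, a2, ha2, hf⟩
    refine ⟨a • a0, S.smul_mem ha0 _, a • a1, S.smul_mem ha1 _, a • a2, S.smul_mem ha2 _, ?_⟩
    rw [mul_smul_comm, hf]
    simp only [smul_add, smul_mul_assoc]
  · intro μ hμ i hi
    have hμ' := hS (Mon_OO hμ)
    rcases Nat.lt_or_ge i 2 with hlt | hge
    · have hc := S.mul_mem hμ' (S.pow_mem h0 l)
      interval_cases i
      · exact ⟨_, hc, 0, S.zero_mem, 0, S.zero_mem, by ring⟩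
      · exact ⟨0, S.zero_mem, _, hc, 0, S.zero_mem, by ring⟩
    · obtain ⟨j, rfl⟩ := Nat.exists_eq_add_of_le hge
      exact ⟨0, S.zero_mem, 0, S.zero_mem, _,
        S.mul_mem hμ' (pow_mul_vr_pow_mem h0 h1 h2 l j (by omega)), by ring⟩

lemma pow_mul_NN_NN {c : Lam} (h0 : c ∈ OO) (h1 : c * vr ∈ OO) (h2 : c * vr ^ 2 ∈ OO)
    {m l : ℕ} {τ : Lam} (hτ : τ ∈ NN (2 * (m + l))) : c ^ l * τ ∈ NN (2 * m) := by
  refine NN_induction (P := fun τ => c ^ l * τ ∈ NN (2 * m)) (by simp) ?_ ?_ ?_ hτ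
  · intro f g hf hg
    rw [mul_add]; exact Submodule.add_mem _ hf hg
  · intro a f hf
    rw [mul_smul_comm]; exact Submodule.smul_mem _ _ hf
  · intro μ hμ i hi
    obtain ⟨i1, i2, h1', h2', rfl⟩ : ∃ i1 i2, i1 ≤ 2 * m ∧ i2 ≤ 2 * l ∧ i = i1 + i2 := by
      refine ⟨min i (2 * m), i - min i (2 * m), by omega, by omega, by omega⟩
    have : c ^ l * (μ * vr ^ (i1 + i2)) = (c ^ l * vr ^ i2) * (μ * vr ^ i1) := by ring
    rw [this]
    exact OO_mul_NN (pow_mul_vr_pow_mem h0 h1 h2 l i2 h2') (NN_gen hμ h1')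

/-! ### No element of `N k` is homogeneous of negative degree in `x, z`. -/

/-- Kill the exponent of `z`. -/
def killz : Ex →+ Ex where
  toFun m := Function.update m 2 0
  map_zero' := by simp
  map_add' m n := by
    ext i
    by_cases h : i = 2
    · subst h; simp
    · simp [Function.update_of_ne h]

/-- The specialization `z ↦ -1`. -/
def chi : Lam →ₐ[ℂ] Lam := AddMonoidAlgebra.mapDomainAlgHom ℂ ℂ killz

lemma chi_mono (m : Ex) : chi (mono m) = mono (killz m) := by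
  simp [chi, mono]

lemma chi_vz : chi vz = -1 := by
  have : killz (ee 2) = 0 := by
    ext i
    fin_cases i <;> simp [killz, ee]
  rw [vz, map_neg, chi_mono, this, mono_zero]

lemma chi_vr : chi vr = 0 := by
  rw [vr, map_mul, map_add, chi_vz, map_one]; simp

/-- Elements with nonnegative exponent in a given variable. -/
def Pos (i : Fin 4) : Subalgebra ℂ Lam where
  carrier := Sup {m : Ex | 0 ≤ m i}
  mul_mem' ha hb := Sup_mul (fun a ha b hb => by
    simp only [Set.mem_ofPred_eq, Pi.add_apply] at *; omega) ha hb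
  add_mem' ha hb := Submodule.add_mem _ ha hb
  algebraMap_mem' a := by
    rw [Algebra.algebraMap_eq_smul_one]
    exact Submodule.smul_mem _ _ (mono_mem_Sup (m := 0) (by simp))

lemma mono_Pos {i : Fin 4} {m : Ex} (h : 0 ≤ m i) : mono m ∈ Pos i := mono_mem_Sup h

lemma NN_sub {S : Subalgebra ℂ Lam} (hx : vx ∈ S) (hy : vy ∈ S) (hz : vz ∈ S) (hu : vu ∈ S)
    (hr : vr ∈ S) {k : ℕ} {τ : Lam} (hτ : τ ∈ NN k) : τ ∈ S := by
  refine NN_induction (P := fun τ => τ ∈ S) S.zero_mem ?_ ?_ ?_ hτ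
  · intro f g hf hg
    exact S.add_mem hf hg
  · intro c f hf
    exact S.smul_mem hf _
  · intro μ hμ i _
    exact S.mul_mem (OO_le hx hy hz hu (Mon_OO hμ)) (S.pow_mem hr i)

lemma NN_eq_zero_of_th {k : ℕ} {τ : Lam} (hτ : τ ∈ NN k) {j : ℤ} (hj : j < 0)
    (hth : τ ∈ WEQ th j) : τ = 0 := by
  have hz : vz ∈ Pos 2 := (Pos 2).neg_mem (mono_Pos (by simp [ee]))
  have hr : vr ∈ Pos 2 :=
    (Pos 2).mul_mem ((Pos 2).add_mem hz (Pos 2).one_mem) (mono_Pos (by simp [ee]))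
  have h1 : τ ∈ Pos 2 :=
    NN_sub (mono_Pos (by simp [ee])) ((Pos 2).mul_mem hz hr) hz (mono_Pos (by simp [ee])) hr hτ
  have h2 : τ ∈ (Pos 1).comap chi := by
    refine NN_sub ?_ ?_ ?_ ?_ ?_ hτ <;> rw [Subalgebra.mem_comap]
    · rw [vx, chi_mono]; exact mono_Pos (by simp [killz, ee])
    · rw [vy, map_mul, chi_vr, mul_zero]; exact (Pos 1).zero_mem
    · rw [chi_vz]; exact (Pos 1).neg_mem (Pos 1).one_mem
    · rw [vu, chi_mono]; exact mono_Pos (by simp [killz, ee])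
    · rw [chi_vr]; exact (Pos 1).zero_mem
  have h3 : τ ∈ Sup ({m : Ex | th m = j} ∩ {m | 0 ≤ m 2}) := Sup_inter hth h1
  have h4 : chi τ ∈ Sup {m : Ex | m 1 < 0} := by
    refine Sup_induction (P := fun τ => chi τ ∈ Sup {m : Ex | m 1 < 0}) (by simp) ?_ ?_ h3
    · intro f g hf hg
      rw [map_add]; exact Submodule.add_mem _ hf hg
    · intro m hm a
      have : (single m a : Lam) = a • mono m := by simp [mono]
      rw [this, map_smul, chi_mono]
      refine Submodule.smul_mem _ _ (mono_mem_Sup ?_)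
      simp only [Set.mem_inter_iff, Set.mem_ofPred_eq, th_apply] at hm
      simp only [Set.mem_ofPred_eq, killz, AddMonoidHom.coe_mk, ZeroHom.coe_mk]
      rw [Function.update_of_ne (by decide)]
      omega
  have h5 : chi τ = 0 := by
    refine Sup_disjoint ?_ h4 h2
    intro m hm hm'
    simp only [Set.mem_ofPred_eq] at hm hm'
    omega
  have hinj : Set.InjOn killz {m : Ex | th m = j} := by
    intro m hm n hn h
    simp only [Set.mem_ofPred_eq, th_apply] at hm hn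
    have h0 := congrFun h 0
    have h1 := congrFun h 1
    have h3 := congrFun h 3
    simp only [killz, AddMonoidHom.coe_mk, ZeroHom.coe_mk] at h0 h1 h3
    rw [Function.update_of_ne (by decide), Function.update_of_ne (by decide)] at h0 h1 h3
    ext i
    fin_cases i
    · exact h0
    · exact h1
    · show m 2 = n 2
      omega
    · exact h3
  have h6 : Finsupp.mapDomain killz τ.coeff = Finsupp.mapDomain killz 0 := by
    have := congrArg AddMonoidAlgebra.coeff h5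
    simpa [chi] using this
  have h7 := Finsupp.mapDomain_injOn _ hinj (by exact hth) (by simp) h6
  simpa using h7

end

end Vale.Agent.P295
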