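import Mathlib

/-!
Leading forms in monoid algebras with respect to a weight, Euler derivations,
and the top homogeneous component of a derivation.
-/

set_option linter.unusedSectionVars false

namespace Vale.Agent.P295

open AddMonoidAlgebra

noncomputable section

variable {M Γ : Type*} [AddCommMonoid M]

/-- Elements supported on a set of exponents. -/
abbrev Sup (S : Set M) : Submodule ℂ (AddMonoidAlgebra ℂ M) := AddMonoidAlgebra.supported ℂ ℂ S

lemma mem_Sup {S : Set M} {f : AddMonoidAlgebra ℂ M} :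
    f ∈ Sup S ↔ ∀ m, f.coeff m ≠ 0 → m ∈ S := by
  rw [AddMonoidAlgebra.mem_supported']
  constructor
  · intro h m hm
    by_contra hn
    exact hm (h m hn)
  · intro h m hm
    by_contra hn
    exact hm (h m hn)

lemma Sup_mono {S T : Set M} (h : S ⊆ T) {f : AddMonoidAlgebra ℂ M} (hf : f ∈ Sup S) :
    f ∈ Sup T := AddMonoidAlgebra.supported_mono h hf

lemma Sup_mul {S T U : Set M} (h : ∀ a ∈ S, ∀ b ∈ T, a + b ∈ U) {f g : AddMonoidAlgebra ℂ M}
    (hf : f ∈ Sup S) (hg : g ∈ Sup T) : f * g ∈ Sup U := by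
  classical
  rw [AddMonoidAlgebra.mem_supported] at hf hg ⊢
  intro m hm
  obtain ⟨a, ha, b, hb, rfl⟩ := Finset.mem_add.1 (support_coeff_mul_subset f g hm)
  exact h a (hf ha) b (hg hb)

lemma single_mem_Sup {S : Set M} {m : M} (hm : m ∈ S) (a : ℂ) :
    (single m a : AddMonoidAlgebra ℂ M) ∈ Sup S := by
  rw [AddMonoidAlgebra.mem_supported]
  intro n hn
  have := Finsupp.support_single_subset hn
  rw [Finset.mem_singleton] at this
  rwa [this]

lemma Sup_disjoint {S T : Set M} (h : ∀ m ∈ S, m ∉ T) {f : AddMonoidAlgebra ℂ M}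
    (hf : f ∈ Sup S) (hg : f ∈ Sup T) : f = 0 := by
  rw [mem_Sup] at hf hg
  ext m
  by_contra hn
  exact h m (hf m hn) (hg m hn)

lemma Sup_inter {S T : Set M} {f : AddMonoidAlgebra ℂ M}
    (hf : f ∈ Sup S) (hg : f ∈ Sup T) : f ∈ Sup (S ∩ T) := by
  rw [mem_Sup] at hf hg ⊢
  exact fun m hm => ⟨hf m hm, hg m hm⟩

lemma Sup_induction {S : Set M} {P : AddMonoidAlgebra ℂ M → Prop} (h0 : P 0)
    (hadd : ∀ f g, P f → P g → P (f + g)) (hs : ∀ m ∈ S, ∀ a : ℂ, P (single m a))
    {f : AddMonoidAlgebra ℂ M} (hf : f ∈ Sup S) : P f := by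
  rw [← sum_coeff_single f, Finsupp.sum]
  refine Finset.sum_induction _ P hadd h0 ?_
  intro m hm
  exact hs m (hf hm) _

open Classical in
/-- The part of an element supported on `S`. -/
def part (S : Set M) : AddMonoidAlgebra ℂ M →ₗ[ℂ] AddMonoidAlgebra ℂ M where
  toFun f := ofCoeff (f.coeff.filter (· ∈ S))
  map_add' f g := by
    ext m
    simp [Finsupp.filter_apply]
  map_smul' a f := by
    ext m
    simp [Finsupp.filter_apply]

open Classical in
lemma coeff_part (S : Set M) (f : AddMonoidAlgebra ℂ M) (m : M) :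
    (part S f).coeff m = if m ∈ S then f.coeff m else 0 := by
  simp [part, Finsupp.filter_apply]

lemma part_mem (S : Set M) (f : AddMonoidAlgebra ℂ M) : part S f ∈ Sup S := by
  rw [mem_Sup]
  intro m hm
  by_contra hn
  simp [coeff_part, hn] at hm

lemma part_mem_of_mem {S T : Set M} {f : AddMonoidAlgebra ℂ M} (hf : f ∈ Sup T) :
    part S f ∈ Sup T := by
  rw [mem_Sup] at hf ⊢
  intro m hm
  apply hf
  intro h0
  simp [coeff_part, h0] at hm

lemma sub_part_mem {S T : Set M} {f : AddMonoidAlgebra ℂ M} (hf : f ∈ Sup T) :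
    f - part S f ∈ Sup (T \ S) := by
  rw [mem_Sup] at hf ⊢
  intro m hm
  by_cases hS : m ∈ S
  · simp [coeff_part, hS] at hm
  · refine ⟨hf m ?_, hS⟩
    simpa [coeff_part, hS] using hm

lemma part_of_mem {S : Set M} {f : AddMonoidAlgebra ℂ M} (hf : f ∈ Sup S) : part S f = f := by
  rw [mem_Sup] at hf
  ext m
  rw [coeff_part]
  split_ifs with h
  · rfl
  · by_contra hn
    exact h (hf m (fun h0 => hn h0.symm))

lemma part_of_disjoint {S T : Set M} (h : ∀ m ∈ T, m ∉ S) {f : AddMonoidAlgebra ℂ M}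
    (hf : f ∈ Sup T) : part S f = 0 :=
  Sup_disjoint h (part_mem_of_mem hf) (part_mem S f)

lemma mem_Sup_univ (f : AddMonoidAlgebra ℂ M) : f ∈ Sup (Set.univ : Set M) := by
  rw [mem_Sup]; intro m _; trivial

section Weight

variable [AddCommGroup Γ] [LinearOrder Γ] [IsOrderedAddMonoid Γ] (w : M →+ Γ)

/-- Homogeneous elements of weight `γ`. -/
abbrev WEQ (γ : Γ) : Submodule ℂ (AddMonoidAlgebra ℂ M) := Sup {m | w m = γ}
/-- Elements of weight `< γ`. -/
abbrev WLT (γ : Γ) : Submodule ℂ (AddMonoidAlgebra ℂ M) := Sup {m | w m < γ}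
/-- Elements of weight `≤ γ`. -/
abbrev WLE (γ : Γ) : Submodule ℂ (AddMonoidAlgebra ℂ M) := Sup {m | w m ≤ γ}

/-- `g` is the weight `γ` part of `f`, and `f` has weight at most `γ`. -/
def IsLead (γ : Γ) (f g : AddMonoidAlgebra ℂ M) : Prop := g ∈ WEQ w γ ∧ f - g ∈ WLT w γ

variable {w}

lemma WEQ_le_WLE {γ : Γ} {f : AddMonoidAlgebra ℂ M} (h : f ∈ WEQ w γ) : f ∈ WLE w γ :=
  Sup_mono (fun _ hm => le_of_eq hm) h

lemma WLT_le_WLE {γ : Γ} {f : AddMonoidAlgebra ℂ M} (h : f ∈ WLT w γ) : f ∈ WLE w γ :=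
  Sup_mono (fun _ hm => le_of_lt hm) h

lemma WLE_mono {γ δ : Γ} (hγ : γ ≤ δ) {f : AddMonoidAlgebra ℂ M} (h : f ∈ WLE w γ) :
    f ∈ WLE w δ :=
  Sup_mono (fun _ hm => le_trans hm hγ) h

lemma WLT_of_WLE {γ δ : Γ} (hγ : γ < δ) {f : AddMonoidAlgebra ℂ M} (h : f ∈ WLE w γ) :
    f ∈ WLT w δ :=
  Sup_mono (fun _ hm => lt_of_le_of_lt hm hγ) h

lemma WLT_of_WEQ {γ δ : Γ} (hγ : γ < δ) {f : AddMonoidAlgebra ℂ M} (h : f ∈ WEQ w γ) :
    f ∈ WLT w δ := WLT_of_WLE hγ (WEQ_le_WLE h)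

lemma WEQ_mul {α β : Γ} {f g : AddMonoidAlgebra ℂ M} (hf : f ∈ WEQ w α) (hg : g ∈ WEQ w β) :
    f * g ∈ WEQ w (α + β) := by
  refine Sup_mul ?_ hf hg
  intro a ha b hb
  simp only [Set.mem_ofPred_eq, map_add] at *
  rw [ha, hb]

lemma WEQ_mul' {α β γ : Γ} {f g : AddMonoidAlgebra ℂ M} (hf : f ∈ WEQ w α) (hg : g ∈ WEQ w β)
    (h : α + β = γ) : f * g ∈ WEQ w γ := h ▸ WEQ_mul hf hg

lemma WLE_mul {α β : Γ} {f g : AddMonoidAlgebra ℂ M} (hf : f ∈ WLE w α) (hg : g ∈ WLE w β) :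
    f * g ∈ WLE w (α + β) := by
  refine Sup_mul ?_ hf hg
  intro a ha b hb
  simp only [Set.mem_ofPred_eq, map_add] at *
  exact add_le_add ha hb

lemma WLT_mul_WLE {α β : Γ} {f g : AddMonoidAlgebra ℂ M} (hf : f ∈ WLT w α) (hg : g ∈ WLE w β) :
    f * g ∈ WLT w (α + β) := by
  refine Sup_mul ?_ hf hg
  intro a ha b hb
  simp only [Set.mem_ofPred_eq, map_add] at *
  exact add_lt_add_of_lt_of_le ha hb

lemma WLE_mul_WLT {α β : Γ} {f g : AddMonoidAlgebra ℂ M} (hf : f ∈ WLE w α) (hg : g ∈ WLT w β) :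
    f * g ∈ WLT w (α + β) := by
  rw [mul_comm, add_comm]
  exact WLT_mul_WLE hg hf

lemma one_mem_WEQ : (1 : AddMonoidAlgebra ℂ M) ∈ WEQ w 0 := by
  rw [one_def]
  exact single_mem_Sup (by simp) _

lemma algebraMap_mem_WEQ (a : ℂ) : algebraMap ℂ (AddMonoidAlgebra ℂ M) a ∈ WEQ w 0 := by
  rw [Algebra.algebraMap_eq_smul_one]
  exact Submodule.smul_mem _ _ one_mem_WEQ

lemma WEQ_pow {α : Γ} {f : AddMonoidAlgebra ℂ M} (hf : f ∈ WEQ w α) (n : ℕ) :
    f ^ n ∈ WEQ w (n • α) := by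
  induction n with
  | zero => simpa using one_mem_WEQ
  | succ n ih => rw [pow_succ, succ_nsmul]; exact WEQ_mul ih hf

lemma eq_zero_of_WEQ_WLT {γ : Γ} {f : AddMonoidAlgebra ℂ M} (h1 : f ∈ WEQ w γ)
    (h2 : f ∈ WLT w γ) : f = 0 := by
  refine Sup_disjoint ?_ h1 h2
  intro m hm hm'
  simp only [Set.mem_ofPred_eq] at hm hm'
  exact absurd hm (ne_of_lt hm')

namespace IsLead

lemma mem_WLE {γ : Γ} {f g : AddMonoidAlgebra ℂ M} (h : IsLead w γ f g) : f ∈ WLE w γ := by
  have : f = g + (f - g) := by ring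
  rw [this]
  exact Submodule.add_mem _ (WEQ_le_WLE h.1) (WLT_le_WLE h.2)

lemma of_WEQ {γ : Γ} {g : AddMonoidAlgebra ℂ M} (h : g ∈ WEQ w γ) : IsLead w γ g g :=
  ⟨h, by simp⟩

lemma of_WLT {γ : Γ} {f : AddMonoidAlgebra ℂ M} (h : f ∈ WLT w γ) : IsLead w γ f 0 :=
  ⟨Submodule.zero_mem _, by simpa using h⟩

lemma of_WLE {γ : Γ} {f : AddMonoidAlgebra ℂ M} (h : f ∈ WLE w γ) :
    IsLead w γ f (part {m | w m = γ} f) := by
  refine ⟨part_mem _ _, Sup_mono ?_ (sub_part_mem h)⟩
  intro m hm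
  exact lt_of_le_of_ne hm.1 hm.2

lemma add {γ : Γ} {f g f' g' : AddMonoidAlgebra ℂ M} (h : IsLead w γ f g)
    (h' : IsLead w γ f' g') : IsLead w γ (f + f') (g + g') := by
  refine ⟨Submodule.add_mem _ h.1 h'.1, ?_⟩
  have : f + f' - (g + g') = (f - g) + (f' - g') := by ring
  rw [this]
  exact Submodule.add_mem _ h.2 h'.2

lemma sub {γ : Γ} {f g f' g' : AddMonoidAlgebra ℂ M} (h : IsLead w γ f g)
    (h' : IsLead w γ f' g') : IsLead w γ (f - f') (g - g') := by
  refine ⟨Submodule.sub_mem _ h.1 h'.1, ?_⟩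
  have : f - f' - (g - g') = (f - g) - (f' - g') := by ring
  rw [this]
  exact Submodule.sub_mem _ h.2 h'.2

lemma smul {γ : Γ} {f g : AddMonoidAlgebra ℂ M} (h : IsLead w γ f g) (a : ℂ) :
    IsLead w γ (a • f) (a • g) := by
  refine ⟨Submodule.smul_mem _ _ h.1, ?_⟩
  rw [← smul_sub]
  exact Submodule.smul_mem _ _ h.2

lemma zero (γ : Γ) : IsLead w γ (0 : AddMonoidAlgebra ℂ M) 0 :=
  of_WEQ (Submodule.zero_mem _)

lemma one : IsLead w 0 (1 : AddMonoidAlgebra ℂ M) 1 := of_WEQ one_mem_WEQ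

lemma mul {α β : Γ} {f g f' g' : AddMonoidAlgebra ℂ M} (h : IsLead w α f g)
    (h' : IsLead w β f' g') : IsLead w (α + β) (f * f') (g * g') := by
  refine ⟨WEQ_mul h.1 h'.1, ?_⟩
  have : f * f' - g * g' = (f - g) * f' + g * (f' - g') := by ring
  rw [this]
  exact Submodule.add_mem _ (WLT_mul_WLE h.2 h'.mem_WLE) (WLE_mul_WLT (WEQ_le_WLE h.1) h'.2)

lemma pow {α : Γ} {f g : AddMonoidAlgebra ℂ M} (h : IsLead w α f g) (n : ℕ) :
    IsLead w (n • α) (f ^ n) (g ^ n) := by
  induction n with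
  | zero => simpa using one
  | succ n ih => rw [pow_succ, pow_succ, succ_nsmul]; exact ih.mul h

lemma unique {γ : Γ} {f g g' : AddMonoidAlgebra ℂ M} (h : IsLead w γ f g)
    (h' : IsLead w γ f g') : g = g' := by
  have h1 := h.sub h'
  rw [sub_self] at h1
  have h2 : g - g' ∈ WLT w γ := by
    have := Submodule.neg_mem _ h1.2
    simpa using this
  exact sub_eq_zero.1 (eq_zero_of_WEQ_WLT h1.1 h2)

lemma eq_zero_of_WLT {γ : Γ} {f g : AddMonoidAlgebra ℂ M} (h : IsLead w γ f g)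
    (h' : f ∈ WLT w γ) : g = 0 := h.unique (of_WLT h')

lemma eq_zero_of_zero {γ : Γ} {g : AddMonoidAlgebra ℂ M} (h : IsLead w γ 0 g) : g = 0 :=
  h.unique (zero γ)

lemma weight_unique {γ δ : Γ} {f g g' : AddMonoidAlgebra ℂ M} (h : IsLead w γ f g)
    (h' : IsLead w δ f g') (hg : g ≠ 0) (hg' : g' ≠ 0) : γ = δ := by
  rcases lt_trichotomy γ δ with hlt | heq | hlt
  · exact absurd (h'.eq_zero_of_WLT (WLT_of_WLE hlt h.mem_WLE)) hg'
  · exact heq
  · exact absurd (h.eq_zero_of_WLT (WLT_of_WLE hlt h'.mem_WLE)) hg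

lemma sum {ι : Type*} {γ : Γ} (s : Finset ι) {f g : ι → AddMonoidAlgebra ℂ M}
    (h : ∀ i ∈ s, IsLead w γ (f i) (g i)) : IsLead w γ (∑ i ∈ s, f i) (∑ i ∈ s, g i) := by
  classical
  induction s using Finset.induction_on with
  | empty => simpa using zero γ
  | insert a s ha ih =>
    rw [Finset.sum_insert ha, Finset.sum_insert ha]
    exact (h a (Finset.mem_insert_self _ _)).add
      (ih fun i hi => h i (Finset.mem_insert_of_mem hi))

end IsLead

variable (w) in
lemma exists_lead {f : AddMonoidAlgebra ℂ M} (hf : f ≠ 0) :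
    ∃ γ g, g ≠ 0 ∧ IsLead w γ f g := by
  classical
  have hne : f.coeff.support.Nonempty := by
    rw [Finsupp.support_nonempty_iff]
    simpa using hf
  obtain ⟨m, hm, hmax⟩ := Finset.exists_max_image f.coeff.support w hne
  have hle : f ∈ WLE w (w m) := by
    rw [mem_Sup]
    intro n hn
    exact hmax n (Finsupp.mem_support_iff.2 hn)
  refine ⟨w m, _, ?_, IsLead.of_WLE hle⟩
  intro h0
  have := congrArg (fun g => g.coeff m) h0
  simp only [coeff_part, Set.mem_ofPred_eq, if_true, coeff_zero, Finsupp.coe_zero,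
    Pi.zero_apply] at this
  exact (Finsupp.mem_support_iff.1 hm) this

variable (w) in
lemma exists_WLE (f : AddMonoidAlgebra ℂ M) (γ : Γ) : ∃ δ, γ ≤ δ ∧ f ∈ WLE w δ := by
  by_cases hf : f = 0
  · exact ⟨γ, le_rfl, by rw [hf]; exact Submodule.zero_mem _⟩
  · obtain ⟨δ, g, -, h⟩ := exists_lead w hf
    exact ⟨max γ δ, le_max_left _ _, WLE_mono (le_max_right _ _) h.mem_WLE⟩

lemma part_mul_of_WEQ {α β : Γ} {g : AddMonoidAlgebra ℂ M} (hg : g ∈ WEQ w α)
    (K : AddMonoidAlgebra ℂ M) :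
    part {m | w m = α + β} (g * K) = g * part {m | w m = β} K := by
  have h1 : g * K = g * part {m | w m = β} K + g * (K - part {m | w m = β} K) := by ring
  have h2 : g * (K - part {m | w m = β} K) ∈ Sup {m | w m ≠ α + β} := by
    refine Sup_mul ?_ hg (sub_part_mem (mem_Sup_univ K))
    intro a ha b hb
    simp only [Set.mem_ofPred_eq, map_add, Set.mem_sdiff, Set.mem_univ, true_and] at *
    rw [ha]
    intro h
    exact hb (add_left_cancel h)
  rw [h1, map_add, part_of_mem (WEQ_mul hg (part_mem _ _)), part_of_disjoint _ h2, add_zero]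
  intro m hm hm'
  exact hm hm'

end Weight

/-! ### Euler derivations -/

/-- The Euler derivation attached to an additive functional on exponents. -/
def eulerLin (l : M →+ ℤ) : AddMonoidAlgebra ℂ M →ₗ[ℂ] AddMonoidAlgebra ℂ M where
  toFun f := ofCoeff (Finsupp.onFinset f.coeff.support (fun m => (l m : ℂ) * f.coeff m)
    (by
      intro m hm
      rw [Finsupp.mem_support_iff]
      intro h0
      simp [h0] at hm))
  map_add' f g := by
    ext m
    simp [mul_add]
  map_smul' a f := by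
    ext m
    simp
    ring

lemma coeff_eulerLin (l : M →+ ℤ) (f : AddMonoidAlgebra ℂ M) (m : M) :
    (eulerLin l f).coeff m = (l m : ℂ) * f.coeff m := by
  simp [eulerLin]

lemma eulerLin_single (l : M →+ ℤ) (m : M) (a : ℂ) :
    eulerLin l (single m a) = (l m : ℂ) • single m a := by
  classical
  ext n
  rw [coeff_eulerLin]
  simp only [coeff_single, coeff_smul, Finsupp.smul_apply, Finsupp.single_apply, smul_eq_mul]
  split_ifs with h
  · rw [h]
  · simp

/-- The Euler derivation. -/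
def euler (l : M →+ ℤ) : Derivation ℂ (AddMonoidAlgebra ℂ M) (AddMonoidAlgebra ℂ M) :=
  Derivation.mk' (eulerLin l) (by
    intro f g
    induction f using AddMonoidAlgebra.induction_linear with
    | zero => simp
    | add f f' hf hf' =>
      simp only [add_mul, map_add, hf, hf', smul_eq_mul]
      ring
    | single m a =>
      induction g using AddMonoidAlgebra.induction_linear with
      | zero => simp
      | add g g' hg hg' =>
        simp only [mul_add, map_add, hg, hg', smul_eq_mul]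
        ring
      | single n b =>
        rw [single_mul_single, eulerLin_single, eulerLin_single, eulerLin_single]
        simp only [smul_eq_mul, mul_smul_comm, single_mul_single, map_add, Int.cast_add,
          add_smul]
        rw [add_comm n m, mul_comm b a, add_comm])

lemma coeff_euler (l : M →+ ℤ) (f : AddMonoidAlgebra ℂ M) (m : M) :
    (euler l f).coeff m = (l m : ℂ) * f.coeff m := coeff_eulerLin l f m

lemma euler_single (l : M →+ ℤ) (m : M) (a : ℂ) :
    euler l (single m a) = (l m : ℂ) • single m a := eulerLin_single l m a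

lemma euler_mem_Sup (l : M →+ ℤ) {S : Set M} {f : AddMonoidAlgebra ℂ M} (hf : f ∈ Sup S) :
    euler l f ∈ Sup S := by
  rw [mem_Sup] at hf ⊢
  intro m hm
  apply hf
  intro h0
  simp [coeff_euler, h0] at hm

lemma euler_of_WEQ (l : M →+ ℤ) {n : ℤ} {f : AddMonoidAlgebra ℂ M} (hf : f ∈ WEQ l n) :
    euler l f = (n : ℂ) • f := by
  rw [mem_Sup] at hf
  ext m
  rw [coeff_euler]
  by_cases h0 : f.coeff m = 0
  · simp [h0]
  · have : l m = n := hf m h0
    simp [this]

lemma mem_WEQ_of_euler (l : M →+ ℤ) {n : ℤ} {f : AddMonoidAlgebra ℂ M}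
    (hf : euler l f = (n : ℂ) • f) : f ∈ WEQ l n := by
  rw [mem_Sup]
  intro m hm
  have := congrArg (fun g => g.coeff m) hf
  simp only [coeff_euler, coeff_smul, Finsupp.smul_apply, smul_eq_mul] at this
  have h2 : (l m : ℂ) = n := mul_right_cancel₀ hm this
  exact_mod_cast h2

/-- A combination of Euler derivations. -/
def eulerComb {ι : Type*} [Fintype ι] (l : ι → M →+ ℤ) (c : ι → AddMonoidAlgebra ℂ M) :
    Derivation ℂ (AddMonoidAlgebra ℂ M) (AddMonoidAlgebra ℂ M) :=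
  ∑ i, c i • euler (l i)

lemma eulerComb_apply {ι : Type*} [Fintype ι] (l : ι → M →+ ℤ) (c : ι → AddMonoidAlgebra ℂ M)
    (f : AddMonoidAlgebra ℂ M) : eulerComb l c f = ∑ i, c i * euler (l i) f := by
  classical
  unfold eulerComb
  induction (Finset.univ : Finset ι) using Finset.induction_on with
  | empty => simp
  | insert a s ha ih => rw [Finset.sum_insert ha, Finset.sum_insert ha, Derivation.add_apply, ih]; simp

section Weight

variable [AddCommGroup Γ] [LinearOrder Γ] [IsOrderedAddMonoid Γ] {w : M →+ Γ}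

lemma IsLead.euler (l : M →+ ℤ) {γ : Γ} {f g : AddMonoidAlgebra ℂ M} (h : IsLead w γ f g) :
    IsLead w γ (euler l f) (euler l g) := by
  refine ⟨euler_mem_Sup l h.1, ?_⟩
  rw [← map_sub]
  exact euler_mem_Sup l h.2

lemma IsLead.eulerComb {ι : Type*} [Fintype ι] (l : ι → M →+ ℤ)
    {c c' : ι → AddMonoidAlgebra ℂ M} {e : Γ} (hc : ∀ i, IsLead w e (c i) (c' i))
    {γ : Γ} {f g : AddMonoidAlgebra ℂ M} (h : IsLead w γ f g) :
    IsLead w (e + γ) (eulerComb l c f) (eulerComb l c' g) := by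
  rw [eulerComb_apply, eulerComb_apply]
  exact IsLead.sum _ fun i _ => (hc i).mul (h.euler (l i))

lemma IsLead.eulerComb_iterate {ι : Type*} [Fintype ι] (l : ι → M →+ ℤ)
    {c c' : ι → AddMonoidAlgebra ℂ M} {e : Γ} (hc : ∀ i, IsLead w e (c i) (c' i))
    {γ : Γ} {f g : AddMonoidAlgebra ℂ M} (h : IsLead w γ f g) (n : ℕ) :
    IsLead w (n • e + γ) ((Vale.Agent.P295.eulerComb l c)^[n] f)
      ((Vale.Agent.P295.eulerComb l c')^[n] g) := by
  induction n with
  | zero => simpa using h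
  | succ n ih =>
    rw [Function.iterate_succ_apply', Function.iterate_succ_apply', succ_nsmul', add_assoc]
    exact IsLead.eulerComb l hc ih

variable (w) in
lemma exists_top {ι : Type*} [Fintype ι] (c : ι → AddMonoidAlgebra ℂ M) (hc : ∃ i, c i ≠ 0) :
    ∃ (e : Γ) (c' : ι → AddMonoidAlgebra ℂ M), (∀ i, IsLead w e (c i) (c' i)) ∧ ∃ i, c' i ≠ 0 := by
  classical
  have hne : (Finset.univ.biUnion fun i => (c i).coeff.support).Nonempty := by
    obtain ⟨i, hi⟩ := hc
    have : (c i).coeff.support.Nonempty := by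
      rw [Finsupp.support_nonempty_iff]
      simpa using hi
    obtain ⟨m, hm⟩ := this
    exact ⟨m, Finset.mem_biUnion.2 ⟨i, Finset.mem_univ _, hm⟩⟩
  obtain ⟨m, hm, hmax⟩ := Finset.exists_max_image _ w hne
  obtain ⟨i, -, hi⟩ := Finset.mem_biUnion.1 hm
  refine ⟨w m, fun j => part {n | w n = w m} (c j), fun j => IsLead.of_WLE ?_, i, ?_⟩
  · rw [mem_Sup]
    intro n hn
    exact hmax n (Finset.mem_biUnion.2 ⟨j, Finset.mem_univ _, Finsupp.mem_support_iff.2 hn⟩)
  · intro h0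
    have := congrArg (fun g => g.coeff m) h0
    simp only [coeff_part, Set.mem_ofPred_eq, if_true, coeff_zero, Finsupp.coe_zero,
      Pi.zero_apply] at this
    exact (Finsupp.mem_support_iff.1 hi) this

end Weight

end

end Vale.Agent.P295
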