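import Vale.Agent.P295.Core4
import Vale.Agent.P295.Defs

/-!
The degree five polynomial is a stable coordinate and not a coordinate.
-/

set_option linter.unusedSectionVars false

namespace Vale.Agent.P295

open MvPolynomial

noncomputable section

lemma exists_algEquiv_of_adjoin {n : ℕ} (g : Fin n → MvPolynomial (Fin n) ℂ)
    (hg : Algebra.adjoin ℂ (Set.range g) = ⊤) :
    ∃ α : MvPolynomial (Fin n) ℂ ≃ₐ[ℂ] MvPolynomial (Fin n) ℂ, ∀ i, α (X i) = g i := by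
  have hs : Function.Surjective (aeval g : MvPolynomial (Fin n) ℂ →ₐ[ℂ] _) := by
    rw [← AlgHom.range_eq_top, ← hg, Algebra.adjoin_range_eq_range_aeval]
  have hi : Function.Injective (aeval g : MvPolynomial (Fin n) ℂ →ₐ[ℂ] _) :=
    injective_of_surjective (aeval g : MvPolynomial (Fin n) ℂ →ₐ[ℂ] _).toRingHom hs
  exact ⟨AlgEquiv.ofBijective _ ⟨hi, hs⟩, fun i => by simp⟩

/-- Transport of the partial derivatives along a presentation of a ring as polynomial ring. -/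
theorem transport_pderiv {B : Type*} [CommRing B] [Algebra ℂ B] {ι : P4 →ₐ[ℂ] P5} {H : P5}
    {φ : P5 →ₐ[ℂ] Lam} (hι : ∀ i, φ (ι (MvPolynomial.X i)) = mono (ee i))
    (hH : φ H = 0) (hsat : ∀ i, MvPolynomial.X i ∈ SatSub ι H)
    (π : P5 →ₐ[ℂ] B) (hπ : Function.Surjective π) (hπH : π H = 0) (ψ : B →ₐ[ℂ] Lam)
    (hψ : ∀ G, ψ (π G) = φ G) (α : P4 ≃ₐ[ℂ] B) (j : Fin 4) :
    ∃ c : Fin 4 → Lam, (∃ i, c i ≠ 0) ∧ (∀ G, ∃ n, (eulerComb co c)^[n] (φ G) = 0) ∧
      (∀ G, ∃ G', eulerComb co c (φ G) = φ G') ∧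
      ∀ i, i ≠ j → eulerComb co c (ψ (α (X i))) = 0 := by
  let δ : B →ₗ[ℂ] B :=
    α.toLinearMap ∘ₗ (pderiv j : Derivation ℂ P4 P4).toLinearMap ∘ₗ α.symm.toLinearMap
  have hδ : ∀ b, δ b = α (pderiv j (α.symm b)) := fun b => rfl
  obtain ⟨c, hc⟩ := transport hι hH hsat π hπ hπH ψ hψ δ (by
    intro a b
    simp [hδ])
  refine ⟨c, ?_, ?_, ?_, ?_⟩
  · by_contra h
    push Not at h
    have h1 := hc (α (X j))
    rw [eulerComb_apply] at h1
    simp [h, hδ] at h1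
  · intro G
    obtain ⟨n, hn⟩ := pderiv_nilpotent j (α.symm (π G))
    refine ⟨n, ?_⟩
    have : ∀ (n : ℕ) (a : P4), (eulerComb co c)^[n] (ψ (α a)) = ψ (α ((pderiv j)^[n] a)) := by
      intro n
      induction n with
      | zero => intro a; rfl
      | succ n ih =>
        intro a
        rw [Function.iterate_succ_apply', Function.iterate_succ_apply', ih, hc, hδ]
        simp
    have h2 := this n (α.symm (π G))
    rw [hn] at h2
    simpa [hψ] using h2
  · intro G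
    obtain ⟨G', hG'⟩ := hπ (δ (π G))
    exact ⟨G', by rw [← hψ, hc, ← hG', hψ]⟩
  · intro i hi
    rw [hc, hδ]
    simp [pderiv_X_of_ne hi]

lemma mem_of_gens {B T : Type*} [CommRing B] [Algebra ℂ B] [CommRing T] [Algebra ℂ T]
    {σ : Type*} (α : MvPolynomial σ ℂ ≃ₐ[ℂ] B) (ψ : B →ₐ[ℂ] T) (S : Subalgebra ℂ T)
    (h : ∀ i, ψ (α (X i)) ∈ S) (b : B) : ψ b ∈ S := by
  obtain ⟨a, rfl⟩ := α.surjective b
  induction a using MvPolynomial.induction_on with
  | C a =>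
    rw [← MvPolynomial.algebraMap_eq, AlgEquiv.commutes, AlgHom.commutes]
    exact S.algebraMap_mem a
  | add a b ha hb => rw [map_add, map_add]; exact S.add_mem ha hb
  | mul_X a i ha => rw [map_mul, map_mul]; exact S.mul_mem ha (h i)

namespace Four

def xB : P4 := X 1 * X 2 - X 0 * X 3
def JB : P4 := X 0 + X 3
def pB : P4 := X 2 * (1 + xB * JB) - X 3 * xB ^ 2
def sB : P4 := X 0 * (1 + xB * JB) - X 1 * xB ^ 2
def vB : P4 := X 3 * (xB * JB - 1) - X 2 * JB ^ 2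
def FB : P4 := X 0 * JB ^ 2 - X 1 * (xB * JB - 1)

lemma pB_eq : pB = quintic := rfl

def pi : P5 →ₐ[ℂ] P4 := aeval ![pB, sB, vB, FB, JB]

def mu : P4 →ₐ[ℂ] P5 :=
  aeval ![X 1 * (1 - xP * X 4) + X 3 * xP ^ 2, -(X 1 * X 4 ^ 2) + X 3 * (1 + xP * X 4),
    X 0 * (1 - xP * X 4) - X 2 * xP ^ 2, -(X 0 * X 4 ^ 2) - X 2 * (1 + xP * X 4)]

lemma pi0 : pi (X 0) = pB := by simp [pi]
lemma pi1 : pi (X 1) = sB := by simp [pi]
lemma pi2 : pi (X 2) = vB := by simp [pi]
lemma pi3 : pi (X 3) = FB := by simp [pi]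
lemma pi4 : pi (X 4) = JB := by simp [pi]
lemma mu0 : mu (X 0) = X 1 * (1 - xP * X 4) + X 3 * xP ^ 2 := by simp [mu]
lemma mu1 : mu (X 1) = -(X 1 * X 4 ^ 2) + X 3 * (1 + xP * X 4) := by simp [mu]
lemma mu2 : mu (X 2) = X 0 * (1 - xP * X 4) - X 2 * xP ^ 2 := by simp [mu]
lemma mu3 : mu (X 3) = -(X 0 * X 4 ^ 2) - X 2 * (1 + xP * X 4) := by simp [mu]

lemma xB_def : xB = X 1 * X 2 - X 0 * X 3 := rfl
lemma JB_def : JB = X 0 + X 3 := rfl
lemma xP_def : xP = X 1 * X 2 + X 0 * X 3 := rfl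

lemma pi_x : pi xP = xB := by
  rw [xP_def]
  simp only [map_add, map_mul, pi0, pi1, pi2, pi3, pB, sB, vB, FB]
  linear_combination -xB_def

lemma pi_mu (i : Fin 4) : pi (mu (X i)) = X i := by
  fin_cases i
  · show pi (mu (X 0)) = X 0
    simp only [mu0, map_add, map_sub, map_mul, map_pow, map_one, pi_x, pi1, pi3, pi4, sB, FB]
    ring
  · show pi (mu (X 1)) = X 1
    simp only [mu1, map_add, map_neg, map_mul, map_pow, map_one, pi_x, pi1, pi3, pi4, sB, FB]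
    ring
  · show pi (mu (X 2)) = X 2
    simp only [mu2, map_sub, map_mul, map_pow, map_one, pi_x, pi0, pi2, pi4, pB, vB]
    ring
  · show pi (mu (X 3)) = X 3
    simp only [mu3, map_add, map_sub, map_neg, map_mul, map_pow, map_one, pi_x, pi0, pi2, pi4,
      pB, vB]
    ring

lemma pi_mu' (a : P4) : pi (mu a) = a := by
  have : pi.comp mu = AlgHom.id ℂ P4 := MvPolynomial.algHom_ext fun i => by simp [pi_mu]
  exact DFunLike.congr_fun this a

lemma pi_surj : Function.Surjective pi := fun a => ⟨mu a, pi_mu' a⟩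

lemma mu_x : mu xB = xP := by
  rw [xB_def]
  simp only [map_sub, map_mul, mu0, mu1, mu2, mu3]
  linear_combination -xP_def

lemma mu_J : mu JB = HH + X 4 := by
  rw [JB_def]
  simp only [map_add, mu0, mu3, HH, H0, uP]
  ring

lemma pi_H : pi HH = 0 := by
  have := pi_mu' JB
  rw [mu_J, map_add, pi4] at this
  linear_combination this

lemma comp_mu_pi {T : Type*} [CommRing T] [Algebra ℂ T] (φ : P5 →ₐ[ℂ] T) (h : φ HH = 0)
    (G : P5) : φ (mu (pi G)) = φ G := by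
  have hx : φ (mu xB) = φ xP := by rw [mu_x]
  have hJ : φ (mu JB) = φ (X 4) := by rw [mu_J, map_add, h, zero_add]
  have : φ.comp (mu.comp pi) = φ := by
    refine MvPolynomial.algHom_ext fun i => ?_
    fin_cases i
    · show φ (mu (pi (X 0))) = φ (X 0)
      simp only [pi0, pB, map_add, map_sub, map_mul, map_pow, map_one, hx, hJ, mu2, mu3, map_neg]
      ring
    · show φ (mu (pi (X 1))) = φ (X 1)
      simp only [pi1, sB, map_add, map_sub, map_mul, map_pow, map_one, hx, hJ, mu0, mu1, map_neg]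
      ring
    · show φ (mu (pi (X 2))) = φ (X 2)
      simp only [pi2, vB, map_add, map_sub, map_mul, map_pow, map_one, hx, hJ, mu2, mu3, map_neg]
      ring
    · show φ (mu (pi (X 3))) = φ (X 3)
      simp only [pi3, FB, map_add, map_sub, map_mul, map_pow, map_one, hx, hJ, mu0, mu1, map_neg]
      ring
    · show φ (mu (pi (X 4))) = φ (X 4)
      rw [pi4, hJ]
  exact DFunLike.congr_fun this G

lemma evJ_not_mem : ev (X 4) ∉ WN := by
  intro h
  have h1 := (lead_gen 4).eq_zero_of_WLT (WLT_of_WLE (γ := 0) (by simp [aw]) h)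
  rw [ev0, evg4] at h1
  have h2 : vz - vx * sv vy = -ff := by
    unfold sv ff
    linear_combination (-1) * vx_vy
  have h3 : ff = 0 := by
    have := (mul_eq_zero.1 h1).resolve_right (mono_ne_zero _)
    rw [h2] at this
    exact neg_eq_zero.1 this
  have h4 := lead_ff
  rw [h3] at h4
  exact fh_ne h4.eq_zero_of_zero

theorem not_isCoordinate : ¬ IsCoordinate quintic := by
  rintro ⟨g, ⟨i0, hi0⟩, hg⟩
  obtain ⟨α, hα⟩ := exists_algEquiv_of_adjoin g hg
  have hψ : ∀ G, (ev.comp mu) (pi G) = ev G := fun G => comp_mu_pi ev ev_H G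
  have hall : ∀ i, (ev.comp mu) (α (X i)) ∈ WN := by
    intro i
    obtain ⟨j, hj1, hj2⟩ : ∃ j : Fin 4, i ≠ j ∧ i0 ≠ j :=
      (by decide : ∀ a b : Fin 4, ∃ j : Fin 4, a ≠ j ∧ b ≠ j) i i0
    obtain ⟨c, hc, hnil, -, hker⟩ :=
      transport_pderiv (evg_io YY) ev_H satH pi pi_surj pi_H (ev.comp mu) hψ α j
    have hp : eulerComb co c vp = 0 := by
      have := hker i0 hj2
      rwa [hα, hi0, ← pB_eq, ← pi0, hψ, ev, evg0] at this
    exact core hc hnil hp (hker i hj1)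
  have := mem_of_gens α (ev.comp mu) WN hall (pi (X 4))
  rw [hψ] at this
  exact evJ_not_mem this

lemma stable_gen {T : Type*} [CommRing T] [Algebra ℂ T] (p s v F J w x : T)
    (hx : x = s * v + p * F)
    (hH : x ^ 2 * F - (1 + x * (s + v)) * J - p * J ^ 2 - (v - s) = 0) :
    ∃ a b c d : T, ∀ S : Subalgebra ℂ T, p ∈ S → a ∈ S → b ∈ S → c ∈ S → d ∈ S →
      s ∈ S ∧ v ∈ S ∧ F ∈ S ∧ J ∈ S ∧ w ∈ S := by
  obtain ⟨z, hz⟩ : ∃ z, z = x * s + p * J := ⟨_, rfl⟩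
  obtain ⟨s', hs'⟩ : ∃ s', s' = s - p * z * w := ⟨_, rfl⟩
  obtain ⟨v', hv'⟩ : ∃ v', v' = v - p * (z + 1) * w := ⟨_, rfl⟩
  obtain ⟨J', hJ'⟩ : ∃ J', J' = J + x * z * w := ⟨_, rfl⟩
  obtain ⟨F', hF'⟩ : ∃ F', F' = F + (s * (z + 1) + v * z) * w - p * z * (z + 1) * w ^ 2 :=
    ⟨_, rfl⟩
  have hx' : x = s' * v' + p * F' := by rw [hs', hv', hF', hx]; ring
  have hz' : z = x * s' + p * J' := by rw [hs', hJ']; linear_combination hz
  have hH' : x ^ 2 * F' - (1 + x * (s' + v')) * J' - p * J' ^ 2 - (v' - s') = p * w := by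
    rw [hs', hv', hF', hJ']
    linear_combination hH - x * w * hz
  refine ⟨s', v', (1 - s' * v' * (s' + v')) * F' + (s' + v') ^ 2 * J',
    w - (F' ^ 2 * (2 * s' * v' + p * F') - F' * (s' + v') * J' - J' ^ 2), ?_⟩
  intro S hp ha hb hc hd
  have h1 : (s' * v') ^ 2 * F' - (1 + s' * v' * (s' + v')) * J' ∈ S := by
    have : (s' * v') ^ 2 * F' - (1 + s' * v' * (s' + v')) * J' = v' - s' +
        p * (w - (F' ^ 2 * (2 * s' * v' + p * F') - F' * (s' + v') * J' - J' ^ 2)) := by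
      rw [hx'] at hH'
      linear_combination hH'
    rw [this]
    exact add_mem (sub_mem hb ha) (mul_mem hp hd)
  have hσ : s' + v' ∈ S := add_mem ha hb
  have hx0 : s' * v' ∈ S := mul_mem ha hb
  have hF : F' ∈ S := by
    have : F' = (s' + v') ^ 2 * ((s' * v') ^ 2 * F' - (1 + s' * v' * (s' + v')) * J') +
        (1 + s' * v' * (s' + v')) * ((1 - s' * v' * (s' + v')) * F' + (s' + v') ^ 2 * J') := by
      ring
    rw [this]
    exact add_mem (mul_mem (pow_mem hσ 2) h1) (mul_mem (add_mem (one_mem _) (mul_mem hx0 hσ)) hc)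
  have hJ : J' ∈ S := by
    have : J' = (s' * v') ^ 2 * ((1 - s' * v' * (s' + v')) * F' + (s' + v') ^ 2 * J') -
        (1 - s' * v' * (s' + v')) * ((s' * v') ^ 2 * F' - (1 + s' * v' * (s' + v')) * J') := by
      ring
    rw [this]
    exact sub_mem (mul_mem (pow_mem hx0 2) hc) (mul_mem (sub_mem (one_mem _) (mul_mem hx0 hσ)) h1)
  have hw : w ∈ S := by
    have : w = (w - (F' ^ 2 * (2 * s' * v' + p * F') - F' * (s' + v') * J' - J' ^ 2)) +
        (F' ^ 2 * (s' * v' + s' * v' + p * F') - F' * (s' + v') * J' - J' ^ 2) := by ring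
    rw [this]
    exact add_mem hd (sub_mem (sub_mem (mul_mem (pow_mem hF 2)
      (add_mem (add_mem hx0 hx0) (mul_mem hp hF))) (mul_mem (mul_mem hF hσ) hJ)) (pow_mem hJ 2))
  have hxS : x ∈ S := by rw [hx']; exact add_mem hx0 (mul_mem hp hF)
  have hzS : z ∈ S := by rw [hz']; exact add_mem (mul_mem hxS ha) (mul_mem hp hJ)
  have hz1 : z + 1 ∈ S := add_mem hzS (one_mem _)
  have hs : s ∈ S := by
    have : s = s' + p * z * w := by rw [hs']; ring
    rw [this]; exact add_mem ha (mul_mem (mul_mem hp hzS) hw)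
  have hv : v ∈ S := by
    have : v = v' + p * (z + 1) * w := by rw [hv']; ring
    rw [this]; exact add_mem hb (mul_mem (mul_mem hp hz1) hw)
  refine ⟨hs, hv, ?_, ?_, hw⟩
  · have : F = F' - (s * (z + 1) + v * z) * w + p * z * (z + 1) * w ^ 2 := by rw [hF']; ring
    rw [this]
    exact add_mem (sub_mem hF (mul_mem (add_mem (mul_mem hs hz1) (mul_mem hv hzS)) hw))
      (mul_mem (mul_mem (mul_mem hp hzS) hz1) (pow_mem hw 2))
  · have : J = J' - x * z * w := by rw [hJ']; ring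
    rw [this]
    exact sub_mem hJ (mul_mem (mul_mem hxS hzS) hw)

lemma map_mem_of_X {T : Type*} [CommRing T] [Algebra ℂ T] {σ : Type*}
    (φ : MvPolynomial σ ℂ →ₐ[ℂ] T) (S : Subalgebra ℂ T) (h : ∀ i, φ (X i) ∈ S)
    (G : MvPolynomial σ ℂ) : φ G ∈ S :=
  mem_of_gens AlgEquiv.refl φ S h G

theorem isStable : IsStableCoordinateOf 1 quintic := by
  let ρ : P4 →ₐ[ℂ] MvPolynomial (Fin (4 + 1)) ℂ := rename (Fin.castAdd 1)
  let φ : P5 →ₐ[ℂ] MvPolynomial (Fin (4 + 1)) ℂ := ρ.comp pi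
  have hH : φ HH = 0 := by simp [φ, pi_H]
  obtain ⟨a, b, c, d, h⟩ := stable_gen (φ (X 0)) (φ (X 1)) (φ (X 2)) (φ (X 3)) (φ (X 4))
    (X (Fin.last 4)) (φ xP) (by simp [xP_def]) (by simpa [HH, H0, uP] using hH)
  refine ⟨![φ (X 0), a, b, c, d], ⟨0, by simp [φ, ρ, pi0, pB_eq]⟩, ?_⟩
  set S := Algebra.adjoin ℂ (Set.range ![φ (X 0), a, b, c, d]) with hS
  have hp : φ (X 0) ∈ S := Algebra.subset_adjoin ⟨0, rfl⟩
  obtain ⟨h1, h2, h3, h4, h5⟩ := h S hp (Algebra.subset_adjoin ⟨1, rfl⟩)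
    (Algebra.subset_adjoin ⟨2, rfl⟩) (Algebra.subset_adjoin ⟨3, rfl⟩)
    (Algebra.subset_adjoin ⟨4, rfl⟩)
  have hφ : ∀ G, φ G ∈ S := by
    refine map_mem_of_X φ S fun i => ?_
    fin_cases i
    exacts [hp, h1, h2, h3, h4]
  rw [eq_top_iff]
  intro G _
  refine map_mem_of_X (AlgHom.id ℂ _) S (fun i => ?_) G
  refine Fin.lastCases h5 (fun j => ?_) i
  have := hφ (mu (X j))
  simp only [φ, ρ, AlgHom.comp_apply, pi_mu, rename_X] at this
  exact this

end Four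

end

end Vale.Agent.P295
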