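import Vale.Agent.P295.Laurent

/-!
Leading forms of the image of a five variable polynomial ring in the Laurent ring.
-/

set_option linter.unusedSectionVars false

namespace Vale.Agent.P295

open AddMonoidAlgebra

noncomputable section

/-- The five variable polynomial ring. -/
abbrev P5 := MvPolynomial (Fin 5) ℂ
/-- The four variable polynomial ring. -/
abbrev P4 := MvPolynomial (Fin 4) ℂ

/-- Weights of the five variables. -/
def aw (k : ℕ) : Fin 5 → ℤ := ![-1, 0, 0, k, k]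

/-- The weight on exponents of the five variables. -/
def wP (k : ℕ) : (Fin 5 →₀ ℕ) →+ ℤ := Finsupp.weight (aw k)

lemma X_mem_WEQ (k : ℕ) (i : Fin 5) : (MvPolynomial.X i : P5) ∈ WEQ (wP k) (aw k i) := by
  refine single_mem_Sup ?_ _
  simp [wP, Finsupp.weight_single]

lemma single_eq_smul_monomial (d : Fin 5 →₀ ℕ) (a : ℂ) :
    (single d a : P5) = a • MvPolynomial.monomial d 1 := by
  rw [MvPolynomial.smul_monomial, smul_eq_mul, mul_one]; rfl

section StepA

variable {k : ℕ} {φ φ0 : P5 →ₐ[ℂ] Lam}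

lemma monomial_lead (hX : ∀ i, IsLead w1 (aw k i) (φ (MvPolynomial.X i)) (φ0 (MvPolynomial.X i)))
    (d : Fin 5 →₀ ℕ) :
    IsLead w1 (wP k d) (φ (MvPolynomial.monomial d 1)) (φ0 (MvPolynomial.monomial d 1)) := by
  induction d using Finsupp.induction_linear with
  | zero =>
    rw [← MvPolynomial.one_def, map_one, map_one, map_zero]
    exact IsLead.one
  | add d d' hd hd' =>
    have : (MvPolynomial.monomial (d + d') 1 : P5) =
        MvPolynomial.monomial d 1 * MvPolynomial.monomial d' 1 := by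
      rw [MvPolynomial.monomial_mul, mul_one]
    rw [this, map_mul, map_mul, map_add]
    exact hd.mul hd'
  | single i n =>
    rw [← MvPolynomial.X_pow_eq_monomial, map_pow, map_pow, wP, Finsupp.weight_single]
    exact (hX i).pow n

lemma lead_of_WEQ (hX : ∀ i, IsLead w1 (aw k i) (φ (MvPolynomial.X i)) (φ0 (MvPolynomial.X i)))
    {n : ℤ} {G : P5} (hG : G ∈ WEQ (wP k) n) : IsLead w1 n (φ G) (φ0 G) := by
  refine Sup_induction (P := fun G => IsLead w1 n (φ G) (φ0 G)) ?_ ?_ ?_ hG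
  · simpa using IsLead.zero n
  · intro f g hf hg
    rw [map_add, map_add]; exact hf.add hg
  · intro d hd a
    rw [single_eq_smul_monomial, map_smul, map_smul]
    have : wP k d = n := hd
    rw [← this]
    exact (monomial_lead hX d).smul a

lemma map_WLT (hX : ∀ i, IsLead w1 (aw k i) (φ (MvPolynomial.X i)) (φ0 (MvPolynomial.X i)))
    {n : ℤ} {G : P5} (hG : G ∈ WLT (wP k) n) : φ G ∈ WLT w1 n := by
  refine Sup_induction (P := fun G => φ G ∈ WLT w1 n) ?_ ?_ ?_ hG
  · simp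
  · intro f g hf hg
    rw [map_add]; exact Submodule.add_mem _ hf hg
  · intro d hd a
    rw [single_eq_smul_monomial, map_smul]
    exact Submodule.smul_mem _ _ (WLT_of_WLE hd (monomial_lead hX d).mem_WLE)

lemma lead_of_WLE (hX : ∀ i, IsLead w1 (aw k i) (φ (MvPolynomial.X i)) (φ0 (MvPolynomial.X i)))
    {n : ℤ} {G : P5} (hG : G ∈ WLE (wP k) n) :
    IsLead w1 n (φ G) (φ0 (part {d | wP k d = n} G)) := by
  have h1 := IsLead.of_WLE hG
  have h2 : φ G = φ (part {d | wP k d = n} G) + φ (G - part {d | wP k d = n} G) := by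
    rw [← map_add]; congr 1; ring
  rw [h2]
  simpa using (lead_of_WEQ hX h1.1).add (IsLead.of_WLT (map_WLT hX h1.2))

theorem stepA (hX : ∀ i, IsLead w1 (aw k i) (φ (MvPolynomial.X i)) (φ0 (MvPolynomial.X i)))
    {H H0 : P5} {h : ℤ} (hH : IsLead (wP k) h H H0) (hφH : φ H = 0)
    (hker : ∀ G, φ0 G = 0 → H0 ∣ G) {n : ℤ} {G : P5} {g : Lam} (hg : IsLead w1 n (φ G) g) :
    ∃ G0 ∈ WEQ (wP k) n, g = φ0 G0 := by
  obtain ⟨δ, hδ, hG⟩ := exists_WLE (wP k) G n
  obtain ⟨j, rfl⟩ : ∃ j : ℕ, δ = n + j := ⟨(δ - n).toNat, by omega⟩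
  clear hδ
  induction j generalizing G with
  | zero =>
    simp only [Nat.cast_zero, add_zero] at hG
    exact ⟨_, part_mem _ _, hg.unique (lead_of_WLE hX hG)⟩
  | succ j ih =>
    have h1 := lead_of_WLE hX hG
    have h2 : φ0 (part {d | wP k d = n + (j + 1 : ℕ)} G) = 0 :=
      h1.eq_zero_of_WLT (WLT_of_WLE (by push_cast; omega) hg.mem_WLE)
    obtain ⟨K, hK⟩ := hker _ h2
    have h3 : part {d | wP k d = n + (j + 1 : ℕ)} G =
        H0 * part {d | wP k d = n + (j + 1 : ℕ) - h} K := by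
      rw [← part_mul_of_WEQ hH.1, ← hK, add_sub_cancel, part_of_mem (part_mem _ _)]
    set K' := part {d | wP k d = n + (j + 1 : ℕ) - h} K with hK'
    have h4 : IsLead (wP k) (n + (j + 1 : ℕ)) (H * K') (H0 * K') := by
      have := hH.mul (IsLead.of_WEQ (part_mem {d | wP k d = n + (j + 1 : ℕ) - h} K))
      rwa [add_sub_cancel] at this
    have h5 := (IsLead.of_WLE hG).sub h4
    rw [h3, sub_self] at h5
    have h6 : G - H * K' ∈ WLE (wP k) (n + j) := by
      refine Sup_mono ?_ (by simpa using h5.2)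
      intro d hd
      simp only [Set.mem_ofPred_eq] at hd ⊢
      omega
    refine ih (G := G - H * K') ?_ h6
    rwa [map_sub, map_mul, hφH, zero_mul, sub_zero]

end StepA

section StepB

variable {k : ℕ} {φ0 : P5 →ₐ[ℂ] Lam} {f : Lam}

/-- The pieces `p ^ (-n) f ^ j N (2 j)`. -/
def UU (f : Lam) (n : ℤ) (j : ℕ) : Submodule ℂ Lam :=
  (NN (2 * j)).map (LinearMap.mulLeft ℂ (mono (-(n • ee 0)) * f ^ j))

lemma mem_UU {n : ℤ} {j : ℕ} {g : Lam} :
    g ∈ UU f n j ↔ ∃ τ ∈ NN (2 * j), g = mono (-(n • ee 0)) * f ^ j * τ := by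
  simp only [UU, Submodule.mem_map, LinearMap.mulLeft_apply]
  constructor
  · rintro ⟨τ, h, rfl⟩; exact ⟨τ, h, rfl⟩
  · rintro ⟨τ, h, rfl⟩; exact ⟨τ, h, rfl⟩

lemma UU_mul {n n' : ℤ} {j j' : ℕ} {g g' : Lam} (h : g ∈ UU f n j) (h' : g' ∈ UU f n' j') :
    g * g' ∈ UU f (n + n') (j + j') := by
  rw [mem_UU] at *
  obtain ⟨τ, hτ, rfl⟩ := h
  obtain ⟨τ', hτ', rfl⟩ := h'
  refine ⟨τ * τ', by rw [mul_add]; exact NN_mul hτ hτ', ?_⟩
  have : mono (-((n + n') • ee 0)) = mono (-(n • ee 0)) * mono (-(n' • ee 0)) := by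
    rw [mono_mul, add_smul, neg_add]
  rw [this]
  ring

lemma one_mem_UU : (1 : Lam) ∈ UU f 0 0 := by
  rw [mem_UU]
  exact ⟨1, OO_NN OO.one_mem, by simp [mono_zero]⟩

lemma UU_pow {n : ℤ} {j : ℕ} {g : Lam} (h : g ∈ UU f n j) (i : ℕ) :
    g ^ i ∈ UU f (i • n) (i * j) := by
  induction i with
  | zero => simpa using one_mem_UU
  | succ i ih => rw [pow_succ, succ_nsmul, Nat.succ_mul]; exact UU_mul ih h

lemma UU_anti (h0 : f ∈ OO) (h1 : f * vr ∈ OO) (h2 : f * vr ^ 2 ∈ OO) {n : ℤ} {j m : ℕ}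
    (hm : m ≤ j) {g : Lam} (h : g ∈ UU f n j) : g ∈ UU f n m := by
  obtain ⟨l, rfl⟩ := Nat.exists_eq_add_of_le hm
  rw [mem_UU] at *
  obtain ⟨τ, hτ, rfl⟩ := h
  exact ⟨f ^ l * τ, pow_mul_NN_NN h0 h1 h2 hτ, by ring⟩

/-- Number of factors `F`, `J` in each variable. -/
def bw : Fin 5 → ℕ := ![0, 0, 0, 1, 1]

lemma monomial_UU (hX : ∀ i, φ0 (MvPolynomial.X i) ∈ UU f (aw k i) (bw i)) (d : Fin 5 →₀ ℕ) :
    φ0 (MvPolynomial.monomial d 1) ∈ UU f (wP k d) (Finsupp.weight bw d) := by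
  induction d using Finsupp.induction_linear with
  | zero =>
    rw [← MvPolynomial.one_def, map_one, map_zero, map_zero]
    exact one_mem_UU
  | add d d' hd hd' =>
    have : (MvPolynomial.monomial (d + d') 1 : P5) =
        MvPolynomial.monomial d 1 * MvPolynomial.monomial d' 1 := by
      rw [MvPolynomial.monomial_mul, mul_one]
    rw [this, map_mul, map_add, map_add]
    exact UU_mul hd hd'
  | single i n =>
    rw [← MvPolynomial.X_pow_eq_monomial, map_pow, wP, Finsupp.weight_single,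
      Finsupp.weight_single]
    exact UU_pow (hX i) n

theorem stepB (hX : ∀ i, φ0 (MvPolynomial.X i) ∈ UU f (aw k i) (bw i))
    (h0 : f ∈ OO) (h1 : f * vr ∈ OO) (h2 : f * vr ^ 2 ∈ OO) {n : ℤ} {m : ℕ}
    (hm : m = 0 ∨ (k : ℤ) * (m - 1) < n) {G : P5} (hG : G ∈ WEQ (wP k) n) :
    φ0 G ∈ UU f n m := by
  refine Sup_induction (P := fun G => φ0 G ∈ UU f n m) ?_ ?_ ?_ hG
  · simp
  · intro f g hf hg
    rw [map_add]; exact Submodule.add_mem _ hf hg
  · intro d hd a
    rw [single_eq_smul_monomial, map_smul]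
    have hd' : wP k d = n := hd
    refine Submodule.smul_mem _ _ (UU_anti h0 h1 h2 ?_ (hd' ▸ monomial_UU hX d))
    rcases hm with rfl | hm
    · exact Nat.zero_le _
    · rw [wP, Finsupp.weight_eq_sum] at hd'
      rw [Finsupp.weight_eq_sum]
      simp only [Fin.sum_univ_five, aw, bw] at hd' ⊢
      simp at hd' ⊢
      by_contra hlt
      have h3 : ((d 3 : ℤ) + d 4) ≤ (m : ℤ) - 1 := by omega
      have h4 : (k : ℤ) * ((d 3 : ℤ) + d 4) ≤ k * ((m : ℤ) - 1) :=
        mul_le_mul_of_nonneg_left h3 (Int.natCast_nonneg k)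
      have h5 : (0 : ℤ) ≤ d 0 := Int.natCast_nonneg _
      nlinarith

end StepB

theorem sagbi {k : ℕ} {φ φ0 : P5 →ₐ[ℂ] Lam} {f fh : Lam} {α β : ℤ}
    (hX : ∀ i, IsLead w1 (aw k i) (φ (MvPolynomial.X i)) (φ0 (MvPolynomial.X i)))
    {H H0 : P5} {h : ℤ} (hH : IsLead (wP k) h H H0) (hφH : φ H = 0)
    (hker : ∀ G, φ0 G = 0 → H0 ∣ G)
    (hU : ∀ i, φ0 (MvPolynomial.X i) ∈ UU f (aw k i) (bw i))
    (h0 : f ∈ OO) (h1 : f * vr ∈ OO) (h2 : f * vr ^ 2 ∈ OO)
    (hf : IsLead (wl α β) (toLex (0, 0)) f fh) (hfh : fh ≠ 0)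
    {n b : ℤ} {G : P5} {g : Lam} (hg : IsLead (wl α β) (toLex (n, b)) (φ G) g)
    {m : ℕ} (hm : m = 0 ∨ (k : ℤ) * (m - 1) < n) : g ∈ UU fh n m := by
  by_cases hg0 : g = 0
  · rw [hg0]; exact Submodule.zero_mem _
  have h3 := IsLead.of_WLE (mem_WLE_w1_of_wl hg.mem_WLE)
  set g1 := part {m | w1 m = n} (φ G) with hg1
  have h4 : IsLead (wl α β) (toLex (n, b)) g1 g := by
    have := hg.sub (IsLead.of_WLT (mem_WLT_wl_of_w1 (α := α) (β := β) b h3.2))
    simpa using this
  obtain ⟨G0, hG0, h5⟩ := stepA hX hH hφH hker h3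
  have h6 := stepB hU h0 h1 h2 hm hG0
  rw [← h5, mem_UU] at h6
  obtain ⟨τ, hτ, h6⟩ := h6
  have hτ0 : τ ≠ 0 := by
    rintro rfl
    rw [mul_zero] at h6
    rw [h6] at h4
    exact hg0 h4.eq_zero_of_zero
  obtain ⟨γ, τh, hτh, h7⟩ := exists_lead (wl α β) hτ0
  have h8 : τh = part {m | wl α β m = γ} τ := h7.unique (IsLead.of_WLE h7.mem_WLE)
  have h9 : τh ∈ NN (2 * m) := h8 ▸ NN_part γ hτ
  have h10 : mono (-(n • ee 0)) ∈ WEQ (wl α β) (toLex (n, 0)) :=
    mono_mem_Sup (by simp [wl_apply, ee])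
  have h11 := ((IsLead.of_WEQ h10).mul (hf.pow m)).mul h7
  rw [← h6] at h11
  have h12 : mono (-(n • ee 0)) * fh ^ m * τh ≠ 0 :=
    mul_ne_zero (mul_ne_zero (mono_ne_zero _) (pow_ne_zero _ hfh)) hτh
  have h13 := h4.weight_unique h11 hg0 h12
  rw [← h13] at h11
  rw [mem_UU]
  exact ⟨τh, h9, h4.unique h11⟩

/-! ### Saturation -/

/-- The embedding of the four variable polynomial ring in the Laurent ring. -/
def emb : P4 →ₐ[ℂ] Lam := MvPolynomial.aeval fun i => mono (ee i)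

lemma emb_X (i : Fin 4) : emb (MvPolynomial.X i) = mono (ee i) := by simp [emb]

/-- Exponent inclusion. -/
def expIncl : (Fin 4 →₀ ℕ) →+ Ex where
  toFun d := fun i => d i
  map_zero' := by ext i; simp
  map_add' d d' := by ext i; simp

lemma emb_injective : Function.Injective emb := by
  have : emb = AddMonoidAlgebra.mapDomainAlgHom ℂ ℂ expIncl := by
    refine MvPolynomial.algHom_ext fun i => ?_
    rw [emb_X]
    have : expIncl (Finsupp.single i 1) = ee i := by
      ext j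
      simp only [expIncl, AddMonoidHom.coe_mk, ZeroHom.coe_mk, ee]
      by_cases h : j = i
      · subst h; simp
      · simp [h]
    rw [← this, mono]
    exact (AddMonoidAlgebra.mapDomain_single (f := expIncl)).symm
  rw [this]
  refine AddMonoidAlgebra.mapDomain_injective ?_
  intro d d' h
  ext i
  have := congrFun h i
  simpa [expIncl] using this

/-- Elements that become polynomial in `p, x, z, u` modulo `H` after clearing `p x`. -/
def SatSub (ι : P4 →ₐ[ℂ] P5) (H : P5) : Subalgebra ℂ P5 where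
  carrier := {G | ∃ (M : ℕ) (G' : P4) (K : P5),
    ι ((MvPolynomial.X 0 * MvPolynomial.X 1) ^ M) * G = ι G' + H * K}
  mul_mem' := by
    rintro a b ⟨M, G, K, h⟩ ⟨M', G', K', h'⟩
    refine ⟨M + M', G * G', K * (ι G' + H * K') + ι G * K', ?_⟩
    rw [pow_add, map_mul, map_mul]
    linear_combination (ι ((MvPolynomial.X 0 * MvPolynomial.X 1) ^ M') * b) * h +
      (ι G + H * K) * h'
  add_mem' := by
    rintro a b ⟨M, G, K, h⟩ ⟨M', G', K', h'⟩
    refine ⟨M + M', (MvPolynomial.X 0 * MvPolynomial.X 1) ^ M' * G +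
      (MvPolynomial.X 0 * MvPolynomial.X 1) ^ M * G',
      ι ((MvPolynomial.X 0 * MvPolynomial.X 1) ^ M') * K +
      ι ((MvPolynomial.X 0 * MvPolynomial.X 1) ^ M) * K', ?_⟩
    rw [pow_add, map_mul, map_add, map_mul, map_mul]
    linear_combination (ι ((MvPolynomial.X 0 * MvPolynomial.X 1) ^ M')) * h +
      (ι ((MvPolynomial.X 0 * MvPolynomial.X 1) ^ M)) * h'
  algebraMap_mem' a := ⟨0, algebraMap ℂ _ a, 0, by simp⟩

variable {ι : P4 →ₐ[ℂ] P5} {H : P5}

lemma SatSub_ι (G : P4) : ι G ∈ SatSub ι H := ⟨0, G, 0, by simp⟩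

lemma SatSub_H (K : P5) : H * K ∈ SatSub ι H := ⟨0, 0, K, by simp⟩

lemma SatSub_of_mul_p {G : P5} (h : ι (MvPolynomial.X 0) * G ∈ SatSub ι H) : G ∈ SatSub ι H := by
  obtain ⟨M, G', K, h⟩ := h
  refine ⟨M + 1, MvPolynomial.X 1 * G', ι (MvPolynomial.X 1) * K, ?_⟩
  rw [pow_succ, map_mul, map_mul, map_mul]
  linear_combination (ι (MvPolynomial.X 1)) * h

lemma SatSub_of_mul_p_pow {G : P5} {n : ℕ} (h : ι (MvPolynomial.X 0) ^ n * G ∈ SatSub ι H) :
    G ∈ SatSub ι H := by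
  induction n generalizing G with
  | zero => simpa using h
  | succ n ih =>
    rw [pow_succ, mul_assoc] at h
    exact SatSub_of_mul_p (ih h)

lemma SatSub_of_mul_x {G : P5} (h : ι (MvPolynomial.X 1) * G ∈ SatSub ι H) : G ∈ SatSub ι H := by
  obtain ⟨M, G', K, h⟩ := h
  refine ⟨M + 1, MvPolynomial.X 0 * G', ι (MvPolynomial.X 0) * K, ?_⟩
  rw [pow_succ, map_mul, map_mul, map_mul]
  linear_combination (ι (MvPolynomial.X 0)) * h

lemma SatSub_top (h : ∀ i, MvPolynomial.X i ∈ SatSub ι H) (G : P5) : G ∈ SatSub ι H := by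
  induction G using MvPolynomial.induction_on with
  | C a => exact (SatSub ι H).algebraMap_mem a
  | add a b ha hb => exact (SatSub ι H).add_mem ha hb
  | mul_X a i ha => exact (SatSub ι H).mul_mem ha (h i)

theorem ker_dvd {φ0 : P5 →ₐ[ℂ] Lam} (hι : ∀ i, φ0 (ι (MvPolynomial.X i)) = mono (ee i))
    (hH : φ0 H = 0) (hsat : ∀ i, MvPolynomial.X i ∈ SatSub ι H)
    (hp : IsRelPrime H (ι (MvPolynomial.X 0))) (hx : IsRelPrime H (ι (MvPolynomial.X 1)))
    (G : P5) (hG : φ0 G = 0) : H ∣ G := by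
  obtain ⟨M, G', K, h⟩ := SatSub_top hsat G
  have hcomp : φ0.comp ι = emb := MvPolynomial.algHom_ext fun i => by simp [hι, emb_X]
  have h1 : emb G' = 0 := by
    have := congrArg φ0 h
    rw [map_mul, hG, mul_zero, map_add, map_mul, hH, zero_mul, add_zero] at this
    rw [← hcomp]
    exact this.symm
  have h2 : G' = 0 := emb_injective (by rw [h1, map_zero])
  rw [h2, map_zero, zero_add, map_pow, map_mul] at h
  have h3 : IsRelPrime H ((ι (MvPolynomial.X 0) * ι (MvPolynomial.X 1)) ^ M) :=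
    (hp.mul_right hx).pow_right
  exact h3.dvd_of_dvd_mul_left ⟨K, h⟩

theorem transfer {φ : P5 →ₐ[ℂ] Lam} (hι : ∀ i, φ (ι (MvPolynomial.X i)) = mono (ee i))
    (hH : φ H = 0) (hsat : ∀ i, MvPolynomial.X i ∈ SatSub ι H) (Ψ : P5 →ₗ[ℂ] Lam)
    (hΨ : ∀ a b, Ψ (a * b) = φ a * Ψ b + φ b * Ψ a) (hΨH : Ψ H = 0) (G : P5) :
    eulerComb co (fun i => Ψ (ι (MvPolynomial.X i)) * mono (-ee i)) (φ G) = Ψ G := by
  set D := eulerComb co (fun i => Ψ (ι (MvPolynomial.X i)) * mono (-ee i)) with hD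
  have hΨ1 : Ψ 1 = 0 := by
    have := hΨ 1 1
    simpa using this
  have hgen : ∀ i, D (φ (ι (MvPolynomial.X i))) = Ψ (ι (MvPolynomial.X i)) := by
    intro i
    rw [hι, hD, eulerComb_apply, Finset.sum_eq_single i]
    · rw [mono, mono, euler_single]
      simp only [co_apply, ee, Pi.single_eq_same, Int.cast_one, one_smul]
      rw [mul_assoc, single_mul_single]
      simp [← one_def]
    · intro j _ hj
      rw [mono, mono, euler_single]
      simp [co_apply, ee, hj]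
    · simp
  have hpoly : ∀ G' : P4, D (φ (ι G')) = Ψ (ι G') := by
    intro G'
    induction G' using MvPolynomial.induction_on with
    | C a =>
      have : ι (MvPolynomial.C a) = a • (1 : P5) := by
        rw [← Algebra.algebraMap_eq_smul_one, ← MvPolynomial.algebraMap_eq, AlgHom.commutes]
      rw [this, map_smul, Derivation.map_smul, map_smul, hΨ1, map_one]
      simp
    | add a b ha hb => simp only [map_add, ha, hb]
    | mul_X a i ha =>
      rw [map_mul, map_mul, Derivation.leibniz, hΨ, ha, hgen]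
      simp
  obtain ⟨M, G', K, h⟩ := SatSub_top hsat G
  have h1 := congrArg (fun G => D (φ G)) h
  have h2 := congrArg Ψ h
  simp only [map_mul φ, map_add, hH, zero_mul, add_zero, Derivation.leibniz, hpoly,
    smul_eq_mul] at h1
  rw [hΨ, map_add, hΨ, hH, hΨH, zero_mul, mul_zero, add_zero, add_zero] at h2
  have h3 : φ (ι ((MvPolynomial.X 0 * MvPolynomial.X 1) ^ M)) ≠ 0 := by
    rw [map_pow, map_pow, map_mul, map_mul, hι, hι]
    exact pow_ne_zero _ (mul_ne_zero (mono_ne_zero _) (mono_ne_zero _))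
  apply mul_left_cancel₀ h3
  linear_combination h1 - h2

lemma isRelPrime_of_degreeOf {σ : Type*} (j : σ) {H a b c : MvPolynomial σ ℂ} (ha : a ≠ 0)
    (hdeg : a.degreeOf j = 0) (hb : a ∣ H - b)
    (hc : MvPolynomial.pderiv j b * c - MvPolynomial.pderiv j (MvPolynomial.pderiv j b) *
      MvPolynomial.X j * c = 1) : IsRelPrime H a := by
  intro d hdH hda
  have hd0 : MvPolynomial.pderiv j d = 0 := by
    obtain ⟨e, rfl⟩ := hda
    rw [MvPolynomial.degreeOf_mul_eq (left_ne_zero_of_mul ha) (right_ne_zero_of_mul ha)] at hdeg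
    have : d.degreeOf j = 0 := by omega
    apply MvPolynomial.pderiv_eq_zero_of_notMem_vars
    intro hj
    exact (MvPolynomial.mem_vars_iff_degreeOf_ne_zero.1 hj) this
  have hder : ∀ e, d ∣ e → d ∣ MvPolynomial.pderiv j e := by
    rintro _ ⟨e, rfl⟩
    rw [Derivation.leibniz, hd0]
    simp
  have h1 : d ∣ b := by
    have := dvd_sub hdH (hda.trans hb)
    simpa using this
  refine isUnit_of_dvd_one ?_
  rw [← hc]
  exact dvd_sub ((hder _ h1).mul_right _) (((hder _ (hder _ h1)).mul_right _).mul_right _)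

end

end Vale.Agent.P295
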